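import Mathlib

/-!
Second moment computation for uniformly random colourings of a finite set of cells.
-/

namespace Vale.Agent.Lib.P078

open Finset

section chi

variable {J : Type*} [Fintype J] [DecidableEq J] {r : ℕ} [NeZero r]

/-- centred indicator of the event that two cells get the same colour -/
noncomputable def chi (c : J → Fin r) (j k : J) : ℝ := (if c j = c k then 1 else 0) - 1 / (r : ℝ)

theorem chi_comm (c : J → Fin r) (j k : J) : chi c j k = chi c k j := by
  simp only [chi, eq_comm]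

theorem chi_sq_le_one (c : J → Fin r) (j k : J) : chi c j k ^ 2 ≤ 1 := by
  have hr : (1 : ℝ) ≤ r := by exact_mod_cast Nat.one_le_iff_ne_zero.2 (NeZero.ne r)
  have h1 : 0 < 1 / (r : ℝ) := by positivity
  have h2 : 1 / (r : ℝ) ≤ 1 := by rw [div_le_one (by linarith)]; exact hr
  unfold chi
  split_ifs <;> nlinarith

/-- cyclic shift of the colour of one cell -/
def shiftAt (j : J) (a : Fin r) : (J → Fin r) ≃ (J → Fin r) where
  toFun c := Function.update c j (c j + a)
  invFun c := Function.update c j (c j - a)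
  left_inv c := by
    funext k
    by_cases h : k = j
    · subst h; simp
    · simp [Function.update_of_ne h]
  right_inv c := by
    funext k
    by_cases h : k = j
    · subst h; simp
    · simp [Function.update_of_ne h]

theorem sum_chi_mul_eq_zero {j k : J} (hjk : j ≠ k) (G : (J → Fin r) → ℝ)
    (hG : ∀ c a, G (Function.update c j a) = G c) :
    ∑ c, chi c j k * G c = 0 := by
  have hr : (r : ℝ) ≠ 0 := by exact_mod_cast NeZero.ne r
  have h1 : ∀ a : Fin r, ∑ c, chi c j k * G c = ∑ c, chi (shiftAt j a c) j k * G c := by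
    intro a
    rw [← Equiv.sum_comp (shiftAt j a)]
    refine Finset.sum_congr rfl fun c _ => ?_
    rw [show G (shiftAt j a c) = G c from hG c _]
  have h3 : ∀ c : J → Fin r, ∑ a, chi (shiftAt j a c) j k = 0 := by
    intro c
    have e : ∀ a : Fin r, chi (shiftAt j a c) j k
        = (if a = c k - c j then 1 else 0) - 1 / (r : ℝ) := by
      intro a
      simp only [chi, shiftAt, Equiv.coe_fn_mk, Function.update_self,
        Function.update_of_ne hjk.symm, eq_sub_iff_add_eq']
    simp only [e, Finset.sum_sub_distrib, Finset.sum_ite_eq', Finset.mem_univ, if_true,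
      Finset.sum_const, Finset.card_univ, Fintype.card_fin, nsmul_eq_mul]
    field_simp
    ring
  have h2 : (r : ℝ) * ∑ c, chi c j k * G c = 0 := by
    calc (r : ℝ) * ∑ c, chi c j k * G c = ∑ _a : Fin r, ∑ c, chi c j k * G c := by simp
      _ = ∑ a : Fin r, ∑ c, chi (shiftAt j a c) j k * G c := Finset.sum_congr rfl fun a _ => h1 a
      _ = ∑ c, ∑ a : Fin r, chi (shiftAt j a c) j k * G c := Finset.sum_comm
      _ = ∑ c, (∑ a : Fin r, chi (shiftAt j a c) j k) * G c := by simp only [Finset.sum_mul]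
      _ = 0 := by simp only [h3, zero_mul, Finset.sum_const_zero]
  exact (mul_eq_zero.1 h2).resolve_left hr

/-- two pairs of cells, one cell of the first pair not occurring elsewhere -/
theorem sum_chi_mul_chi_eq_zero {j k j' k' : J} (hjk : j ≠ k) (h1 : j ≠ j') (h2 : j ≠ k') :
    ∑ c : J → Fin r, chi c j k * chi c j' k' = 0 := by
  refine sum_chi_mul_eq_zero hjk (fun c => chi c j' k') fun c a => ?_
  simp only [chi, Function.update_of_ne h1.symm, Function.update_of_ne h2.symm]

end chi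

section orth

variable {Ω T : Type*} [Fintype Ω] [Fintype T] [DecidableEq T]

theorem sum_sq_le_of_orth (φ : T → Ω → ℝ) (V : ℝ)
    (horth : ∀ t s, t ≠ s → ∑ ω, φ t ω * φ s ω = 0) (hV : ∀ t, ∑ ω, φ t ω ^ 2 ≤ V) (a : T → ℝ) :
    ∑ ω, (∑ t, φ t ω * a t) ^ 2 ≤ V * ∑ t, a t ^ 2 := by
  have e1 : ∑ ω, (∑ t, φ t ω * a t) ^ 2 = ∑ t, ∑ s, (a t * a s) * ∑ ω, φ t ω * φ s ω := by
    calc ∑ ω, (∑ t, φ t ω * a t) ^ 2
        = ∑ ω, ∑ t, ∑ s, (a t * a s) * (φ t ω * φ s ω) := by
          refine Finset.sum_congr rfl fun ω _ => ?_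
          rw [sq, Finset.sum_mul_sum]
          refine Finset.sum_congr rfl fun t _ => Finset.sum_congr rfl fun s _ => ?_
          ring
      _ = ∑ t, ∑ ω, ∑ s, (a t * a s) * (φ t ω * φ s ω) := Finset.sum_comm
      _ = ∑ t, ∑ s, ∑ ω, (a t * a s) * (φ t ω * φ s ω) :=
          Finset.sum_congr rfl fun t _ => Finset.sum_comm
      _ = _ := by simp only [Finset.mul_sum]
  have e2 : ∀ t, ∑ s, (a t * a s) * ∑ ω, φ t ω * φ s ω = a t ^ 2 * ∑ ω, φ t ω ^ 2 := by
    intro t
    rw [Finset.sum_eq_single t]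
    · simp only [sq]
    · intro s _ hs
      rw [horth t s hs.symm, mul_zero]
    · intro h; exact absurd (Finset.mem_univ t) h
  rw [e1, Finset.mul_sum]
  refine Finset.sum_le_sum fun t _ => ?_
  rw [e2, mul_comm]
  exact mul_le_mul_of_nonneg_right (hV t) (sq_nonneg _)

theorem sum_norm_sq_le_of_orth (φ : T → Ω → ℝ) (V : ℝ)
    (horth : ∀ t s, t ≠ s → ∑ ω, φ t ω * φ s ω = 0) (hV : ∀ t, ∑ ω, φ t ω ^ 2 ≤ V) (z : T → ℂ) :
    ∑ ω, ‖∑ t, (φ t ω : ℂ) * z t‖ ^ 2 ≤ V * ∑ t, ‖z t‖ ^ 2 := by
  have hre := sum_sq_le_of_orth φ V horth hV (fun t => (z t).re)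
  have him := sum_sq_le_of_orth φ V horth hV (fun t => (z t).im)
  have e : ∀ w : ℂ, ‖w‖ ^ 2 = w.re ^ 2 + w.im ^ 2 := fun w => by
    rw [Complex.sq_norm, Complex.normSq_apply]; ring
  simp only [e, Complex.re_sum, Complex.im_sum, Complex.re_ofReal_mul, Complex.im_ofReal_mul,
    Finset.sum_add_distrib, mul_add]
  exact add_le_add hre him

end orth

end Vale.Agent.Lib.P078
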