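import Mathlib

/-!
Definitions for P078: maximal abelian subalgebras, partitions and pinchings in a set of operators,
so-pavability and the paving number.
-/

namespace Vale.Agent.Lib.P078

section general

variable {H : Type*} [NormedAddCommGroup H] [InnerProductSpace ℂ H] [CompleteSpace H]

/-- `A` is a maximal abelian self-adjoint subalgebra of `M`: it is closed under adjoints and it is
equal to its own relative commutant in `M`. -/
def IsMASA (M A : Set (H →L[ℂ] H)) : Prop :=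
  (∀ a ∈ A, star a ∈ A) ∧ ∀ z, z ∈ A ↔ z ∈ M ∧ ∀ a ∈ A, a * z = z * a

/-- A partition in `A` with `r` pieces: mutually orthogonal projections of `A` with sum `1`
(zeros allowed). -/
structure IsPartition (A : Set (H →L[ℂ] H)) {r : ℕ} (p : Fin r → H →L[ℂ] H) : Prop where
  mem : ∀ i, p i ∈ A
  proj : ∀ i, IsStarProjection (p i)
  orth : ∀ i j, i ≠ j → p i * p j = 0
  sum_eq : ∑ i, p i = 1

/-- The pinching of `x` by the family `p`. -/
def pinch {r : ℕ} (p : Fin r → H →L[ℂ] H) (x : H →L[ℂ] H) : H →L[ℂ] H := ∑ i, p i * x * p i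

/-- `x` is `(ε, r)` so-pavable over `A` in `M`. -/
def SoPavable (M A : Set (H →L[ℂ] H)) (x : H →L[ℂ] H) (ε : ℝ) (r : ℕ) : Prop :=
  ∀ (F : Finset H) (δ : ℝ), 0 < δ →
    ∃ (p : Fin r → H →L[ℂ] H) (a q : H →L[ℂ] H),
      IsPartition A p ∧ a ∈ A ∧ IsSelfAdjoint a ∧ ‖a‖ ≤ ‖x‖ ∧ q ∈ M ∧ IsStarProjection q ∧
      (∀ ξ ∈ F, ‖(1 - q) ξ‖ < δ) ∧ ‖q * (pinch p x - a) * q‖ ≤ ε * ‖x‖

/-- The least `r ≥ 1` such that every self-adjoint element of `M` is `(ε, r)` so-pavable over `A`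
(infinite if there is none). -/
noncomputable def pavingNumber (M A : Set (H →L[ℂ] H)) (ε : ℝ) : ℕ∞ :=
  sInf ((fun r : ℕ => (r : ℕ∞)) ''
    {r : ℕ | 1 ≤ r ∧ ∀ x ∈ M, IsSelfAdjoint x → SoPavable M A x ε r})

end general

end Vale.Agent.Lib.P078
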