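import Vale.Agent.Lib.P078.Defs

/-!
Hilbert space lemmas: finite families of mutually orthogonal projections with sum one, diagonal
operators, pinchings, and the projection onto the span of a finite orthonormal family.
-/

namespace Vale.Agent.Lib.P078

open Finset

variable {H : Type*} [NormedAddCommGroup H] [InnerProductSpace ℂ H] [CompleteSpace H]

theorem sa_inner {x : H →L[ℂ] H} (hx : IsSelfAdjoint x) (u v : H) :
    inner ℂ (x u) v = inner ℂ u (x v) := by
  have := ContinuousLinearMap.adjoint_inner_left x v u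
  rwa [ContinuousLinearMap.isSelfAdjoint_iff'.1 hx] at this

theorem isSelfAdjoint_of_inner {x : H →L[ℂ] H}
    (h : ∀ u v : H, inner ℂ (x u) v = inner ℂ u (x v)) : IsSelfAdjoint x := by
  rw [ContinuousLinearMap.isSelfAdjoint_iff']
  exact ((ContinuousLinearMap.eq_adjoint_iff x x).2 h).symm

theorem norm_sq_sum_of_orth {J : Type*} (s : Finset J) (w : J → H)
    (h : ∀ j ∈ s, ∀ k ∈ s, j ≠ k → inner ℂ (w j) (w k) = 0) :
    ‖∑ j ∈ s, w j‖ ^ 2 = ∑ j ∈ s, ‖w j‖ ^ 2 := by
  have e : inner ℂ (∑ j ∈ s, w j) (∑ j ∈ s, w j) = ∑ j ∈ s, inner ℂ (w j) (w j) := by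
    rw [sum_inner]
    refine Finset.sum_congr rfl fun j hj => ?_
    rw [inner_sum]
    exact Finset.sum_eq_single_of_mem j hj fun k hk hkj => h j hj k hk hkj.symm
  have e2 := congrArg Complex.re e
  rw [Complex.re_sum] at e2
  simpa [inner_self_eq_norm_sq_to_K, ← Complex.ofReal_pow] using e2

/-- a finite family of mutually orthogonal projections with sum one -/
structure IsPOU {J : Type*} [Fintype J] (e : J → H →L[ℂ] H) : Prop where
  proj : ∀ j, IsStarProjection (e j)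
  orth : ∀ j k, j ≠ k → e j * e k = 0
  sum_eq : ∑ j, e j = 1

theorem IsPartition.toPOU {A : Set (H →L[ℂ] H)} {r : ℕ} {p : Fin r → H →L[ℂ] H}
    (hp : IsPartition A p) : IsPOU p := ⟨hp.proj, hp.orth, hp.sum_eq⟩

namespace IsPOU

variable {J : Type*} [Fintype J] {e : J → H →L[ℂ] H}

theorem idem (he : IsPOU e) (j : J) (u : H) : e j (e j u) = e j u := by
  have := (he.proj j).isIdempotentElem.eq
  exact congrArg (fun T : H →L[ℂ] H => T u) this

theorem apply_apply_of_ne (he : IsPOU e) {j k : J} (h : j ≠ k) (u : H) : e j (e k u) = 0 := by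
  have := he.orth j k h
  exact congrArg (fun T : H →L[ℂ] H => T u) this

theorem inner_left (he : IsPOU e) (j : J) (u v : H) :
    inner ℂ (e j u) v = inner ℂ u (e j v) := sa_inner (he.proj j).isSelfAdjoint u v

theorem inner_orth (he : IsPOU e) {j k : J} (h : j ≠ k) (u v : H) :
    inner ℂ (e j u) (e k v) = 0 := by
  rw [he.inner_left, he.apply_apply_of_ne h, inner_zero_right]

theorem sum_apply (he : IsPOU e) (u : H) : ∑ j, e j u = u := by
  have := congrArg (fun T : H →L[ℂ] H => T u) he.sum_eq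
  simpa using this

theorem norm_sq_eq_inner (he : IsPOU e) (j : J) (u : H) :
    ((‖e j u‖ ^ 2 : ℝ) : ℂ) = inner ℂ u (e j u) := by
  rw [← he.idem j u, ← he.inner_left, he.idem, inner_self_eq_norm_sq_to_K]
  norm_cast

theorem sum_norm_sq (he : IsPOU e) (u : H) : ∑ j, ‖e j u‖ ^ 2 = ‖u‖ ^ 2 := by
  have h := norm_sq_sum_of_orth Finset.univ (fun j => e j u)
    (fun j _ k _ hjk => he.inner_orth hjk u u)
  rw [he.sum_apply] at h
  exact h.symm

theorem norm_blockDiag_le (he : IsPOU e) (y : J → H →L[ℂ] H) {C : ℝ} (hC : 0 ≤ C)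
    (hy : ∀ j, ‖y j‖ ≤ C) : ‖∑ j, e j * y j * e j‖ ≤ C := by
  refine ContinuousLinearMap.opNorm_le_bound _ hC fun u => ?_
  have h1 : (∑ j, e j * y j * e j) u = ∑ j, e j (y j (e j u)) := by
    simp
  have h2 := norm_sq_sum_of_orth Finset.univ (fun j => e j (y j (e j u)))
    (fun j _ k _ hjk => he.inner_orth hjk _ _)
  have h3 : ∀ j, ‖e j (y j (e j u))‖ ^ 2 ≤ C ^ 2 * ‖e j u‖ ^ 2 := by
    intro j
    have a1 : ‖e j (y j (e j u))‖ ≤ 1 * ‖y j (e j u)‖ :=
      (e j).le_of_opNorm_le (IsStarProjection.norm_le _ (he.proj j)) _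
    have a2 : ‖y j (e j u)‖ ≤ C * ‖e j u‖ := (y j).le_of_opNorm_le (hy j) _
    have a3 : ‖e j (y j (e j u))‖ ≤ C * ‖e j u‖ := by linarith
    calc ‖e j (y j (e j u))‖ ^ 2 ≤ (C * ‖e j u‖) ^ 2 := by gcongr
      _ = _ := by ring
  have h4 : ‖(∑ j, e j * y j * e j) u‖ ^ 2 ≤ (C * ‖u‖) ^ 2 := by
    rw [h1, h2]
    calc ∑ j, ‖e j (y j (e j u))‖ ^ 2 ≤ ∑ j, C ^ 2 * ‖e j u‖ ^ 2 := Finset.sum_le_sum fun j _ => h3 j
      _ = C ^ 2 * ‖u‖ ^ 2 := by rw [← Finset.mul_sum, he.sum_norm_sq]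
      _ = _ := by ring
  exact abs_le_of_sq_le_sq' h4 (by positivity) |>.2

end IsPOU

theorem norm_pinch_le {r : ℕ} {p : Fin r → H →L[ℂ] H} (hp : IsPOU p) (x : H →L[ℂ] H) :
    ‖pinch p x‖ ≤ ‖x‖ := hp.norm_blockDiag_le (fun _ => x) (norm_nonneg x) fun _ => le_rfl

/-- diagonal operator with respect to a family of projections -/
def diagOp {J : Type*} [Fintype J] (e : J → H →L[ℂ] H) (w : J → ℂ) : H →L[ℂ] H := ∑ j, w j • e j

section diag

variable {J : Type*} [Fintype J] {e : J → H →L[ℂ] H}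

theorem diagOp_apply (w : J → ℂ) (u : H) : diagOp e w u = ∑ j, w j • e j u := by
  simp [diagOp]

theorem diagOp_mul [DecidableEq J] (he : IsPOU e) (w w' : J → ℂ) :
    diagOp e w * diagOp e w' = diagOp e (fun j => w j * w' j) := by
  simp only [diagOp, Finset.sum_mul, Finset.mul_sum]
  refine Finset.sum_congr rfl fun j _ => ?_
  rw [Finset.sum_eq_single j]
  · rw [smul_mul_smul_comm, (he.proj j).isIdempotentElem.eq]
  · intro k _ hk
    rw [smul_mul_smul_comm, he.orth k j hk, smul_zero]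
  · intro h; exact absurd (Finset.mem_univ j) h

theorem diagOp_one (he : IsPOU e) : diagOp e (fun _ => 1) = 1 := by
  simp [diagOp, he.sum_eq]

theorem diagOp_zero : diagOp e (fun _ => 0) = 0 := by
  simp [diagOp]

theorem diagOp_sum {ι : Type*} (s : Finset ι) (w : ι → J → ℂ) :
    ∑ i ∈ s, diagOp e (w i) = diagOp e (fun j => ∑ i ∈ s, w i j) := by
  simp only [diagOp, Finset.sum_smul]
  exact Finset.sum_comm

theorem diagOp_isSelfAdjoint (he : IsPOU e) (w : J → ℝ) :
    IsSelfAdjoint (diagOp e (fun j => (w j : ℂ))) := by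
  unfold diagOp
  refine isSelfAdjoint_sum _ fun j _ => ?_
  exact IsSelfAdjoint.smul (by simp [isSelfAdjoint_iff]) (he.proj j).isSelfAdjoint

theorem norm_diagOp_le (he : IsPOU e) (w : J → ℂ) {C : ℝ} (hC : 0 ≤ C) (hw : ∀ j, ‖w j‖ ≤ C) :
    ‖diagOp e w‖ ≤ C := by
  have h := he.norm_blockDiag_le (fun j => w j • (1 : H →L[ℂ] H)) hC (fun j => by
    calc ‖w j • (1 : H →L[ℂ] H)‖ ≤ ‖w j‖ * ‖(1 : H →L[ℂ] H)‖ := norm_smul_le _ _
      _ ≤ ‖w j‖ * 1 := by gcongr; exact ContinuousLinearMap.norm_id_le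
      _ ≤ C := by rw [mul_one]; exact hw j)
  have e1 : ∑ j, e j * (w j • (1 : H →L[ℂ] H)) * e j = diagOp e w := by
    unfold diagOp
    refine Finset.sum_congr rfl fun j _ => ?_
    rw [mul_smul_comm, mul_one, smul_mul_assoc, (he.proj j).isIdempotentElem.eq]
  rwa [e1] at h

/-- the colour classes of a colouring form a family of orthogonal projections with sum one -/
theorem isPOU_colour [DecidableEq J] (he : IsPOU e) {r : ℕ} (c : J → Fin r) :
    IsPOU (fun l : Fin r => diagOp e (fun j => if c j = l then (1 : ℂ) else 0)) where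
  proj l := by
    refine ⟨?_, ?_⟩
    · show _ * _ = _
      rw [diagOp_mul he]
      congr 1
      funext j
      split_ifs <;> simp
    · have := diagOp_isSelfAdjoint he (fun j => if c j = l then (1 : ℝ) else 0)
      convert this using 2
      funext j
      split_ifs <;> simp
  orth l l' h := by
    rw [diagOp_mul he, ← diagOp_zero (e := e)]
    congr 1
    funext j
    by_cases h1 : c j = l
    · simp [h1, h]
    · simp [h1]
  sum_eq := by
    rw [diagOp_sum, ← diagOp_one he]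
    congr 1
    funext j
    simp

end diag

/-- the projection onto the span of a finite orthonormal family -/
noncomputable def rk {ι : Type*} [Fintype ι] (f : ι → H) : H →L[ℂ] H :=
  ∑ m, (innerSL ℂ (f m)).smulRight (f m)

section rk

variable {ι : Type*} [Fintype ι] {f : ι → H}

theorem rk_apply (u : H) : rk f u = ∑ m, inner ℂ (f m) u • f m := by
  simp [rk]

theorem rk_apply_self [DecidableEq ι] (hf : Orthonormal ℂ f) (k : ι) : rk f (f k) = f k := by
  rw [rk_apply]
  simp [orthonormal_iff_ite.1 hf]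

theorem rk_apply_of_mem_span [DecidableEq ι] (hf : Orthonormal ℂ f) {y : H}
    (hy : y ∈ Submodule.span ℂ (Set.range f)) : rk f y = y := by
  induction hy using Submodule.span_induction with
  | mem x hx => obtain ⟨k, rfl⟩ := hx; exact rk_apply_self hf k
  | zero => simp
  | add x y _ _ hx hy => rw [map_add, hx, hy]
  | smul a x _ hx => rw [map_smul, hx]

theorem rk_isStarProjection [DecidableEq ι] (hf : Orthonormal ℂ f) : IsStarProjection (rk f) := by
  refine ⟨?_, ?_⟩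
  · show rk f * rk f = rk f
    ext u
    show rk f (rk f u) = rk f u
    conv_lhs => rw [rk_apply u]
    simp only [map_sum, map_smul, rk_apply_self hf]
    rw [rk_apply]
  · refine isSelfAdjoint_of_inner fun u v => ?_
    simp only [rk_apply, sum_inner, inner_sum, inner_smul_left, inner_smul_right, inner_conj_symm]
    refine Finset.sum_congr rfl fun m _ => ?_
    ring

theorem norm_one_sub_rk_apply_le [DecidableEq ι] (hf : Orthonormal ℂ f) (u : H) {y : H}
    (hy : y ∈ Submodule.span ℂ (Set.range f)) : ‖(1 - rk f) u‖ ≤ ‖u - y‖ := by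
  have h1 : (1 - rk f) u = (1 - rk f) (u - y) := by
    simp [map_sub, rk_apply_of_mem_span hf hy]
  rw [h1]
  have h2 := (1 - rk f).le_of_opNorm_le
    (IsStarProjection.norm_le _ (rk_isStarProjection hf).one_sub) (u - y)
  simpa using h2

theorem norm_rk_mul_mul_rk_le [DecidableEq ι] (hf : Orthonormal ℂ f) (y : H →L[ℂ] H) :
    ‖rk f * y * rk f‖ ≤ Real.sqrt (∑ m, ∑ k, ‖inner ℂ (f m) (y (f k))‖ ^ 2) := by
  obtain ⟨B, hB⟩ : ∃ B : ℝ, B = ∑ m, ∑ k, ‖inner ℂ (f m) (y (f k))‖ ^ 2 := ⟨_, rfl⟩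
  rw [← hB]
  refine ContinuousLinearMap.opNorm_le_bound _ (Real.sqrt_nonneg _) fun u => ?_
  have h1 : (rk f * y * rk f) u
      = ∑ m, (∑ k, inner ℂ (f k) u * inner ℂ (f m) (y (f k))) • f m := by
    show rk f (y (rk f u)) = _
    rw [rk_apply (y (rk f u))]
    refine Finset.sum_congr rfl fun m _ => ?_
    congr 1
    rw [rk_apply u]
    simp only [map_sum, map_smul, inner_sum, inner_smul_right]
  have h2 : ‖(rk f * y * rk f) u‖ ^ 2
      = ∑ m, ‖∑ k, inner ℂ (f k) u * inner ℂ (f m) (y (f k))‖ ^ 2 := by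
    rw [h1, norm_sq_sum_of_orth]
    · refine Finset.sum_congr rfl fun m _ => ?_
      rw [norm_smul, hf.norm_eq_one, mul_one]
    · intro j _ k _ hjk
      rw [inner_smul_left, inner_smul_right, hf.inner_eq_zero hjk]
      simp
  have h3 : ∀ m, ‖∑ k, inner ℂ (f k) u * inner ℂ (f m) (y (f k))‖ ^ 2
      ≤ ‖u‖ ^ 2 * ∑ k, ‖inner ℂ (f m) (y (f k))‖ ^ 2 := by
    intro m
    have a1 : ‖∑ k, inner ℂ (f k) u * inner ℂ (f m) (y (f k))‖
        ≤ ∑ k, ‖inner ℂ (f k) u‖ * ‖inner ℂ (f m) (y (f k))‖ := by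
      refine (norm_sum_le _ _).trans (Finset.sum_le_sum fun k _ => ?_)
      rw [norm_mul]
    have a2 := Finset.sum_mul_sq_le_sq_mul_sq Finset.univ (fun k => ‖inner ℂ (f k) u‖)
      (fun k => ‖inner ℂ (f m) (y (f k))‖)
    have a3 : ∑ k, ‖inner ℂ (f k) u‖ ^ 2 ≤ ‖u‖ ^ 2 := hf.sum_inner_products_le u
    calc ‖∑ k, inner ℂ (f k) u * inner ℂ (f m) (y (f k))‖ ^ 2
        ≤ (∑ k, ‖inner ℂ (f k) u‖ * ‖inner ℂ (f m) (y (f k))‖) ^ 2 := by gcongr
      _ ≤ (∑ k, ‖inner ℂ (f k) u‖ ^ 2) * ∑ k, ‖inner ℂ (f m) (y (f k))‖ ^ 2 := a2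
      _ ≤ _ := by gcongr
  have hB0 : 0 ≤ B := by rw [hB]; positivity
  have h4 : ‖(rk f * y * rk f) u‖ ^ 2 ≤ (Real.sqrt B * ‖u‖) ^ 2 := by
    rw [h2, mul_pow, Real.sq_sqrt hB0, hB, Finset.sum_mul]
    refine Finset.sum_le_sum fun m _ => ?_
    rw [mul_comm]
    exact h3 m
  exact abs_le_of_sq_le_sq' h4 (by positivity) |>.2

end rk

end Vale.Agent.Lib.P078
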