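import Vale.Agent.Lib.P078.Upper

/-!
The abstract lower bound: the reflection in a unit vector which is spread evenly over fine
partitions of a commutative algebra cannot be paved with fewer than `1 / ε` pieces.
-/

namespace Vale.Agent.Lib.P078

open Finset

variable {H : Type*} [NormedAddCommGroup H] [InnerProductSpace ℂ H] [CompleteSpace H]

/-- the reflection `2 |v⟩⟨v| - 1` -/
noncomputable def reflOp (v : H) : H →L[ℂ] H := 2 * rk (fun _ : Fin 1 => v) - 1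

theorem orthonormal_single {v : H} (hv : ‖v‖ = 1) : Orthonormal ℂ (fun _ : Fin 1 => v) := by
  refine ⟨fun _ => hv, fun i j hij => ?_⟩
  exact absurd (Subsingleton.elim i j) hij

theorem reflOp_apply (v u : H) : reflOp v u = (2 * inner ℂ v u) • v - u := by
  simp only [reflOp, two_mul, _root_.sub_apply, _root_.add_apply, one_apply_eq_self, rk_apply,
    Finset.univ_unique, Finset.sum_singleton, add_smul]

theorem reflOp_isSelfAdjoint {v : H} (hv : ‖v‖ = 1) : IsSelfAdjoint (reflOp v) := by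
  have h := (rk_isStarProjection (orthonormal_single hv)).isSelfAdjoint
  unfold reflOp
  refine IsSelfAdjoint.sub ?_ (IsSelfAdjoint.one _)
  rw [two_mul]
  exact h.add h

theorem norm_reflOp {v : H} (hv : ‖v‖ = 1) : ‖reflOp v‖ = 1 := by
  have : Nontrivial H := ⟨⟨v, 0, fun h => by simp [h] at hv⟩⟩
  exact CStarRing.norm_of_mem_unitary
    (rk_isStarProjection (orthonormal_single hv)).two_mul_sub_one_mem_unitary

theorem inner_reflOp (v u : H) :
    (inner ℂ u (reflOp v u)).re = 2 * ‖inner ℂ v u‖ ^ 2 - ‖u‖ ^ 2 := by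
  rw [reflOp_apply, inner_sub_right, inner_smul_right, inner_self_eq_norm_sq_to_K, mul_assoc,
    ← inner_conj_symm u v, Complex.mul_conj, Complex.normSq_eq_norm_sq]
  simp [← Complex.ofReal_pow]

theorem re_inner_pinch_reflOp {r : ℕ} {p : Fin r → H →L[ℂ] H} (hp : IsPOU p) (v u : H) :
    (inner ℂ u (pinch p (reflOp v) u)).re = 2 * ∑ l, ‖inner ℂ v (p l u)‖ ^ 2 - ‖u‖ ^ 2 := by
  rw [inner_pinch hp, Complex.re_sum]
  simp only [inner_reflOp, Finset.sum_sub_distrib, hp.sum_norm_sq, Finset.mul_sum]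

/-- compression estimate -/
theorem norm_inner_le_of_compress {q y : H →L[ℂ] H} (hq : IsStarProjection q) {u : H} {δ : ℝ}
    (hu : ‖(1 - q) u‖ < δ) :
    ‖inner ℂ u (y u)‖ ≤ ‖q * y * q‖ * ‖u‖ ^ 2 + 2 * ‖y‖ * ‖u‖ * δ := by
  have hq1 : ‖q‖ ≤ 1 := IsStarProjection.norm_le _ hq
  have hqu : ‖q u‖ ≤ ‖u‖ := by simpa using q.le_of_opNorm_le hq1 u
  have hdec : u = q u + (1 - q) u := by simp
  have e1 : inner ℂ u (y u) = inner ℂ u ((q * y * q) u) + inner ℂ (q u) (y ((1 - q) u))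
      + inner ℂ ((1 - q) u) (y u) := by
    have a1 : inner ℂ u ((q * y * q) u) = inner ℂ (q u) (y (q u)) := by
      simp only [mul_apply_eq_comp]
      rw [← sa_inner hq.isSelfAdjoint]
    rw [a1, ← inner_add_right, ← map_add, ← hdec, ← inner_add_left, ← hdec]
  have b1 : ‖inner ℂ u ((q * y * q) u)‖ ≤ ‖q * y * q‖ * ‖u‖ ^ 2 := by
    calc _ ≤ ‖u‖ * ‖(q * y * q) u‖ := norm_inner_le_norm _ _
      _ ≤ ‖u‖ * (‖q * y * q‖ * ‖u‖) := by gcongr; exact (q * y * q).le_opNorm u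
      _ = _ := by ring
  have b2 : ‖inner ℂ (q u) (y ((1 - q) u))‖ ≤ ‖y‖ * ‖u‖ * δ := by
    calc _ ≤ ‖q u‖ * ‖y ((1 - q) u)‖ := norm_inner_le_norm _ _
      _ ≤ ‖u‖ * (‖y‖ * ‖(1 - q) u‖) := by gcongr; exact y.le_opNorm _
      _ ≤ ‖u‖ * (‖y‖ * δ) := by gcongr
      _ = _ := by ring
  have b3 : ‖inner ℂ ((1 - q) u) (y u)‖ ≤ ‖y‖ * ‖u‖ * δ := by
    calc _ ≤ ‖(1 - q) u‖ * ‖y u‖ := norm_inner_le_norm _ _
      _ ≤ δ * (‖y‖ * ‖u‖) :=
          mul_le_mul hu.le (y.le_opNorm _) (norm_nonneg _) (by linarith [norm_nonneg ((1 - q) u)])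
      _ = _ := by ring
  rw [e1]
  calc _ ≤ ‖inner ℂ u ((q * y * q) u) + inner ℂ (q u) (y ((1 - q) u))‖
        + ‖inner ℂ ((1 - q) u) (y u)‖ := norm_add_le _ _
    _ ≤ ‖inner ℂ u ((q * y * q) u)‖ + ‖inner ℂ (q u) (y ((1 - q) u))‖
        + ‖inner ℂ ((1 - q) u) (y u)‖ := by gcongr; exact norm_add_le _ _
    _ ≤ _ := by linarith

theorem lower_core {M A : Set (H →L[ℂ] H)} (hcomm : ∀ a ∈ A, ∀ b ∈ A, a * b = b * a)
    {N : ℕ} (hN : 0 < N) {E : Fin N → H →L[ℂ] H} (hE : IsPOU E) (hEA : ∀ m, E m ∈ A)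
    {v : H} (hv : ‖v‖ = 1) (hcell : ∀ m, ‖E m v‖ ^ 2 = 1 / (N : ℝ))
    {ε : ℝ} {r : ℕ} (hr : 0 < r) {δ : ℝ} (hδ : 0 < δ)
    (hpav : SoPavable M A (reflOp v) ε r) :
    1 / (r : ℝ) ≤ ε + 1 / N + 2 * (N + 1) * δ := by
  classical
  have hN' : (0 : ℝ) < N := by exact_mod_cast hN
  have hr' : (0 : ℝ) < r := by exact_mod_cast hr
  obtain ⟨p, a, q, hp, haA, ha, hanorm, -, hq, hF, hbound⟩ :=
    hpav (insert v (Finset.univ.image fun m => E m v)) δ hδ
  have hpou := hp.toPOU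
  rw [norm_reflOp hv] at hanorm
  rw [norm_reflOp hv, mul_one] at hbound
  obtain ⟨y, hy⟩ : ∃ y, y = pinch p (reflOp v) - a := ⟨_, rfl⟩
  rw [← hy] at hbound
  have hynorm : ‖y‖ ≤ 2 := by
    rw [hy]
    have := norm_pinch_le hpou (reflOp v)
    rw [norm_reflOp hv] at this
    calc _ ≤ ‖pinch p (reflOp v)‖ + ‖a‖ := norm_sub_le _ _
      _ ≤ 2 := by linarith
  have hest : ∀ u : H, ‖u‖ ≤ 1 → ‖(1 - q) u‖ < δ →
      |(inner ℂ u (y u)).re| ≤ ε * ‖u‖ ^ 2 + 4 * δ := by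
    intro u hu1 hu
    have h1 := norm_inner_le_of_compress (y := y) hq hu
    have h2 := Complex.abs_re_le_norm (inner ℂ u (y u))
    have h3 : ‖q * y * q‖ * ‖u‖ ^ 2 ≤ ε * ‖u‖ ^ 2 := by gcongr
    have h4 : 2 * ‖y‖ * ‖u‖ * δ ≤ 2 * 2 * 1 * δ := by gcongr
    linarith
  have hre : ∀ u : H, (inner ℂ u (y u)).re
      = 2 * ∑ l, ‖inner ℂ v (p l u)‖ ^ 2 - ‖u‖ ^ 2 - (inner ℂ u (a u)).re := by
    intro u
    rw [hy, _root_.sub_apply, inner_sub_right, Complex.sub_re, re_inner_pinch_reflOp hpou]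
  -- the vector `v`
  have hv1 : (1 : ℝ) / r ≤ ∑ l, ‖inner ℂ v (p l v)‖ ^ 2 := by
    have e : ∀ l, ‖inner ℂ v (p l v)‖ = ‖p l v‖ ^ 2 := by
      intro l
      rw [← hpou.norm_sq_eq_inner, Complex.norm_real, Real.norm_of_nonneg (by positivity)]
    simp only [e]
    have h1 := sq_sum_le_card_mul_sum_sq (s := Finset.univ) (f := fun l => ‖p l v‖ ^ 2)
    rw [hpou.sum_norm_sq, hv] at h1
    simp only [Finset.card_univ, Fintype.card_fin] at h1
    rw [div_le_iff₀ hr']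
    linarith
  -- the cells
  have hcellnorm : ∀ m, ‖E m v‖ ≤ 1 := by
    intro m
    have := (E m).le_of_opNorm_le (IsStarProjection.norm_le _ (hE.proj m)) v
    simpa [hv] using this
  have hc1 : ∀ m, ∑ l, ‖inner ℂ v (p l (E m v))‖ ^ 2 ≤ (1 / (N : ℝ)) ^ 2 := by
    intro m
    have e : ∀ l, ‖inner ℂ v (p l (E m v))‖ = ‖p l (E m v)‖ ^ 2 := by
      intro l
      have c1 : p l (E m v) = E m (p l (E m v)) := by
        have := congrArg (fun T : H →L[ℂ] H => T (E m v)) (hcomm _ (hp.mem l) _ (hEA m))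
        simp only [mul_apply_eq_comp] at this
        rw [← this, hE.idem]
      rw [c1, ← hE.inner_left, ← c1, ← hpou.norm_sq_eq_inner, Complex.norm_real,
        Real.norm_of_nonneg (by positivity)]
    simp only [e]
    have h1 := Finset.sum_sq_le_sq_sum_of_nonneg (s := Finset.univ)
      (f := fun l => ‖p l (E m v)‖ ^ 2) (fun l _ => by positivity)
    rwa [hpou.sum_norm_sq, hcell] at h1
  have hB : ∀ m, (inner ℂ (E m v) (a (E m v))).re
      ≤ ε / N + 4 * δ - 1 / N + 2 * (1 / (N : ℝ)) ^ 2 := by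
    intro m
    have h1 := hest (E m v) (hcellnorm m) (hF _ (by simp))
    rw [hre, hcell] at h1
    have h2 := (abs_le.1 h1).1
    have h3 := hc1 m
    have h4 : ε * (1 / (N : ℝ)) = ε / N := by ring
    linarith
  have hsumB : (inner ℂ v (a v)).re = ∑ m, (inner ℂ (E m v) (a (E m v))).re := by
    have e1 : inner ℂ v (a v) = ∑ m, inner ℂ (E m v) (a (E m v)) := by
      conv_lhs => rw [← hE.sum_apply v]
      rw [sum_inner]
      refine Finset.sum_congr rfl fun m _ => ?_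
      rw [map_sum, inner_sum]
      refine Finset.sum_eq_single_of_mem m (Finset.mem_univ m) fun k _ hk => ?_
      have c1 : E m (a (E k v)) = a (E m (E k v)) := by
        have := congrArg (fun T : H →L[ℂ] H => T (E k v)) (hcomm _ (hEA m) _ haA)
        simpa only [mul_apply_eq_comp] using this
      rw [hE.inner_left, c1, hE.apply_apply_of_ne hk.symm, map_zero, inner_zero_right]
    rw [e1, Complex.re_sum]
  have hsumB' : (inner ℂ v (a v)).re ≤ ε + 4 * N * δ - 1 + 2 / N := by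
    rw [hsumB]
    calc ∑ m, (inner ℂ (E m v) (a (E m v))).re
        ≤ ∑ _m : Fin N, (ε / N + 4 * δ - 1 / N + 2 * (1 / (N : ℝ)) ^ 2) :=
          Finset.sum_le_sum fun m _ => hB m
      _ = _ := by
          simp only [Finset.sum_const, Finset.card_univ, Fintype.card_fin, nsmul_eq_mul]
          field_simp
  have h1 := hest v hv.le (hF _ (by simp))
  rw [hre, hv] at h1
  have h2 := (abs_le.1 h1).2
  have h3 : (2 : ℝ) / N = 2 * (1 / N) := by ring
  nlinarith

end Vale.Agent.Lib.P078
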