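import Vale.Agent.Lib.P078.Model

/-!
The so-paving threshold of the multiplication algebra of the unit interval.
-/

namespace Vale.Agent.Lib.P078

open MeasureTheory Set Filter
open scoped ENNReal

theorem upper_model {x : L2I →L[ℂ] L2I} (hx : IsSelfAdjoint x) {ε : ℝ} {r : ℕ}
    (h : 1 < ε * r) : SoPavable Set.univ multAlg x ε r := by
  intro F δ hδ
  have hr : 0 < r := by
    rcases Nat.eq_zero_or_pos r with h0 | h0
    · subst h0; norm_num at h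
    · exact h0
  have hr' : (0 : ℝ) < r := by exact_mod_cast hr
  haveI : NeZero r := ⟨hr.ne'⟩
  -- the coarse grid
  have hev : ∀ᶠ N : ℕ in atTop, ∀ ξ ∈ F,
      ∃ y ∈ Submodule.span ℂ (Set.range (gridInd N)), ‖ξ - y‖ < δ :=
    (Filter.eventually_all_finset F).2 fun ξ _ => dense_step ξ hδ
  obtain ⟨N0, hN0F, hN0⟩ := (hev.and (eventually_gt_atTop 0)).exists
  -- the fine grid
  obtain ⟨γ, hγ⟩ : ∃ γ : ℝ, γ = ε - 1 / r := ⟨_, rfl⟩
  have hγpos : 0 < γ := by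
    rw [hγ, sub_pos, div_lt_iff₀ hr']; exact h
  obtain ⟨L, hL⟩ := exists_nat_gt ((N0 : ℝ) ^ 2 / γ ^ 2)
  have hLpos' : (0 : ℝ) < L := lt_of_le_of_lt (by positivity) hL
  have hLpos : 0 < L := by exact_mod_cast hLpos'
  have hg := isGrid_fine (Nat.mul_pos hN0 hLpos)
  obtain ⟨c, hc⟩ := upper_core (r := r) hg hLpos hx
  have hf := blockVec_orthonormal hg hLpos
  refine ⟨colourProj (fineOp N0 L) c, corrOp (fineOp N0 L) (fineVec N0 L) x c,
    rk (blockVec (fineVec N0 L)), ?_, diagOp_mem_multAlg _, diagOp_isSelfAdjoint hg.pou _, ?_,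
    Set.mem_univ _, rk_isStarProjection hf, ?_, ?_⟩
  · have hp := isPOU_colourProj hg c
    exact ⟨fun l => diagOp_mem_multAlg _, hp.proj, hp.orth, hp.sum_eq⟩
  · refine norm_diagOp_le hg.pou _ (norm_nonneg x) fun j => ?_
    rw [Complex.norm_real, Real.norm_eq_abs]
    exact abs_corr_le hg hLpos hr x c j.1
  · intro ξ hξ
    obtain ⟨y, hy, hyξ⟩ := hN0F ξ hξ
    have hy' : y ∈ Submodule.span ℂ (Set.range (blockVec (fineVec N0 L))) := by
      refine (Submodule.span_le.2 ?_) hy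
      rintro _ ⟨m, rfl⟩
      exact gridInd_mem_span hN0 hLpos m
    exact (norm_one_sub_rk_apply_le hf ξ hy').trans_lt hyξ
  · refine hc.trans ?_
    have h1 : Real.sqrt ((N0 : ℝ) ^ 2 * (‖x‖ ^ 2 / L)) ≤ γ * ‖x‖ := by
      rw [← Real.sqrt_sq (by positivity : 0 ≤ γ * ‖x‖)]
      refine Real.sqrt_le_sqrt ?_
      have h2 : (N0 : ℝ) ^ 2 ≤ γ ^ 2 * L := by
        rw [div_lt_iff₀ (by positivity)] at hL
        linarith
      calc (N0 : ℝ) ^ 2 * (‖x‖ ^ 2 / L) ≤ (γ ^ 2 * L) * (‖x‖ ^ 2 / L) := by gcongr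
        _ = (γ * ‖x‖) ^ 2 := by field_simp
    calc ‖x‖ / r + Real.sqrt ((N0 : ℝ) ^ 2 * (‖x‖ ^ 2 / L)) ≤ ‖x‖ / r + γ * ‖x‖ := by linarith
      _ = ε * ‖x‖ := by rw [hγ]; ring

theorem norm_ind_zero_one : ‖ind 2 0 1‖ = 1 := by
  have h := norm_ind_sq (a := 0) (b := 1) le_rfl zero_le_one le_rfl
  nlinarith [norm_nonneg (ind 2 0 1)]

theorem lower_model {ε : ℝ} {r : ℕ} (hr : 0 < r) (h : ε * r < 1) :
    ¬ SoPavable Set.univ multAlg (reflOp (ind 2 0 1)) ε r := by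
  intro hpav
  have hr' : (0 : ℝ) < r := by exact_mod_cast hr
  obtain ⟨γ, hγ⟩ : ∃ γ : ℝ, γ = 1 / r - ε := ⟨_, rfl⟩
  have hγpos : 0 < γ := by
    rw [hγ, sub_pos, lt_div_iff₀ hr']; exact h
  obtain ⟨N, hN⟩ := exists_nat_gt (2 / γ)
  have hNpos' : (0 : ℝ) < N := lt_of_le_of_lt (by positivity) hN
  have hNpos : 0 < N := by exact_mod_cast hNpos'
  have hcell : ∀ m : Fin N, ‖gridOp N m (ind 2 0 1)‖ ^ 2 = 1 / (N : ℝ) := by
    intro m
    have := gridOp_smul_one m 1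
    rw [one_smul, one_smul] at this
    rw [this, norm_gridInd_sq]
  have hδ : 0 < γ / (8 * (N + 1)) := by positivity
  have hlow := lower_core multAlg_comm hNpos (isPOU_gridOp hNpos) gridOp_mem_multAlg
    norm_ind_zero_one hcell hr hδ hpav
  have h1 : 1 / (N : ℝ) < γ / 2 := by
    rw [div_lt_iff₀ hNpos']
    rw [div_lt_iff₀ hγpos] at hN
    linarith
  have h2 : 2 * ((N : ℝ) + 1) * (γ / (8 * (N + 1))) = γ / 4 := by
    field_simp; ring
  rw [h2] at hlow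
  linarith

theorem pavingNumber_le {ε : ℝ} (hε : 0 < ε) :
    pavingNumber Set.univ multAlg ε ≤ ((⌊1 / ε⌋₊ + 1 : ℕ) : ℕ∞) := by
  refine sInf_le ⟨⌊1 / ε⌋₊ + 1, ⟨by omega, fun x _ hx => upper_model hx ?_⟩, rfl⟩
  have := Nat.lt_floor_add_one (1 / ε)
  rw [div_lt_iff₀ hε] at this
  push_cast
  linarith

theorem le_pavingNumber {ε : ℝ} (hε : 0 < ε) :
    ((⌈1 / ε⌉₊ : ℕ) : ℕ∞) ≤ pavingNumber Set.univ multAlg ε := by
  refine le_sInf ?_
  rintro _ ⟨r, ⟨hr1, hr⟩, rfl⟩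
  show ((⌈1 / ε⌉₊ : ℕ) : ℕ∞) ≤ (r : ℕ∞)
  rw [Nat.cast_le]
  by_contra hlt
  rw [not_le, Nat.lt_ceil, lt_div_iff₀ hε] at hlt
  refine lower_model (by omega) (by linarith) (hr _ (Set.mem_univ _) ?_)
  exact reflOp_isSelfAdjoint norm_ind_zero_one

end Vale.Agent.Lib.P078
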