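import Vale.Agent.Lib.P078.Main

/-!
The multiplication algebra of the unit interval is maximal abelian in the algebra of all bounded
operators on square integrable functions.
-/

namespace Vale.Agent.Lib.P078

open MeasureTheory Set Filter
open scoped ENNReal

theorem star_mulOp (g : Lp ℂ ∞ mu01) : star (mulOp g) = mulOp (star g) := by
  rw [ContinuousLinearMap.star_eq_adjoint]
  symm
  rw [ContinuousLinearMap.eq_adjoint_iff]
  intro u v
  rw [L2.inner_def, L2.inner_def]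
  refine integral_congr_ae ?_
  filter_upwards [mulOp_coeFn (star g) u, mulOp_coeFn g v, Lp.coeFn_star g] with t h1 h2 h3
  rw [h1, h2, h3]
  simp only [Pi.star_apply, RCLike.inner_apply, map_mul, RCLike.star_def, Complex.conj_conj]
  ring

theorem dense_span_gridInd :
    Dense (Submodule.span ℂ (⋃ N : ℕ, Set.range (gridInd N)) : Set L2I) := by
  rw [Metric.dense_iff]
  intro ξ δ hδ
  obtain ⟨N, y, hy, hyξ⟩ := (dense_step ξ hδ).exists
  refine ⟨y, ?_, ?_⟩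
  · rw [Metric.mem_ball, dist_comm, dist_eq_norm]; exact hyξ
  · exact Submodule.span_mono (Set.subset_iUnion (fun N => Set.range (gridInd N)) N) hy

theorem mem_multAlg_of_commute {z : L2I →L[ℂ] L2I} (hz : ∀ a ∈ multAlg, a * z = z * a) :
    z ∈ multAlg := by
  obtain ⟨k, hk⟩ : ∃ k : L2I, k = z (ind 2 0 1) := ⟨_, rfl⟩
  obtain ⟨C, hC⟩ : ∃ C : ℝ, C = ‖z‖ := ⟨_, rfl⟩
  have hC0 : 0 ≤ C := by rw [hC]; exact norm_nonneg z
  have hmem : ∀ᵐ t ∂mu01, t ∈ Ico (0 : ℝ) 1 := ae_restrict_mem measurableSet_Ico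
  -- the set where `k` is large is null
  have hS : MeasurableSet {t : ℝ | C + 1 ≤ ‖k t‖} :=
    measurableSet_le measurable_const (Lp.stronglyMeasurable k).norm.measurable
  obtain ⟨s, hs⟩ : ∃ s : Lp ℂ ∞ mu01,
      s = indicatorConstLp ∞ hS (measure_ne_top mu01 _) (1 : ℂ) := ⟨_, rfl⟩
  have hsae : s =ᵐ[mu01] {t : ℝ | C + 1 ≤ ‖k t‖}.indicator fun _ => (1 : ℂ) := by
    rw [hs]; exact indicatorConstLp_coeFn
  have hcomm : z (mulOp s (ind 2 0 1)) = mulOp s k := by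
    have := congrArg (fun T : L2I →L[ℂ] L2I => T (ind 2 0 1)) (hz (mulOp s) ⟨s, rfl⟩)
    simp only [mul_apply_eq_comp] at this
    rw [hk, this]
  have hle : ‖mulOp s (ind 2 0 1)‖ ≤ (C + 1)⁻¹ * ‖mulOp s k‖ := by
    refine Lp.norm_le_mul_norm_of_ae_le_mul ?_
    filter_upwards [mulOp_coeFn s (ind 2 0 1), mulOp_coeFn s k, hsae, ind_coeFn 2 0 1, hmem]
      with t h1 h2 h3 h4 h5
    rw [h1, h2, h3, h4, indicator_of_mem h5]
    by_cases ht : t ∈ {t : ℝ | C + 1 ≤ ‖k t‖}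
    · rw [indicator_of_mem ht]
      simp only [mul_one, norm_one, one_mul]
      rw [inv_mul_eq_div, le_div_iff₀ (by linarith)]
      simpa using ht
    · rw [indicator_of_notMem ht]
      simp
  have hzero : mulOp s (ind 2 0 1) = 0 := by
    have h1 : ‖mulOp s k‖ ≤ C * ‖mulOp s (ind 2 0 1)‖ := by
      rw [← hcomm, hC]; exact z.le_opNorm _
    have h2 : ‖mulOp s (ind 2 0 1)‖ ≤ (C + 1)⁻¹ * (C * ‖mulOp s (ind 2 0 1)‖) :=
      hle.trans (by gcongr)
    have h3 : (C + 1) * ‖mulOp s (ind 2 0 1)‖ ≤ C * ‖mulOp s (ind 2 0 1)‖ := by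
      rw [inv_mul_eq_div, le_div_iff₀ (by linarith)] at h2
      linarith
    have h4 : ‖mulOp s (ind 2 0 1)‖ ≤ 0 := by linarith
    exact norm_le_zero_iff.1 h4
  have hbound : ∀ᵐ t ∂mu01, ‖k t‖ ≤ C + 1 := by
    have h0 : mulOp s (ind 2 0 1) =ᵐ[mu01] (0 : ℝ → ℂ) := by
      rw [hzero]; exact Lp.coeFn_zero ℂ 2 mu01
    filter_upwards [mulOp_coeFn s (ind 2 0 1), hsae, ind_coeFn 2 0 1, hmem, h0]
      with t h1 h3 h4 h5 h6
    by_contra hcon
    have ht : t ∈ {t : ℝ | C + 1 ≤ ‖k t‖} := (not_le.1 hcon).le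
    rw [h6, h3, h4, indicator_of_mem h5, indicator_of_mem ht] at h1
    simp at h1
  -- the symbol
  obtain ⟨g, hg⟩ : ∃ g : Lp ℂ ∞ mu01,
      g = (memLp_top_of_bound (Lp.aestronglyMeasurable k) (C + 1) hbound).toLp k := ⟨_, rfl⟩
  have hgae : g =ᵐ[mu01] k := by rw [hg]; exact MemLp.coeFn_toLp _
  refine ⟨g, ?_⟩
  refine ContinuousLinearMap.ext_on dense_span_gridInd ?_
  rintro _ ⟨_, ⟨N, rfl⟩, ⟨m, rfl⟩⟩
  have e1 : gridInd N m = gridOp N m (ind 2 0 1) := by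
    have := gridOp_smul_one m 1
    rw [one_smul, one_smul] at this
    exact this.symm
  have e2 : z (gridInd N m) = gridOp N m k := by
    have := congrArg (fun T : L2I →L[ℂ] L2I => T (ind 2 0 1)) (hz _ (gridOp_mem_multAlg m))
    simp only [mul_apply_eq_comp] at this
    rw [e1, hk, this]
  rw [e2]
  refine Lp.ext ?_
  filter_upwards [mulOp_coeFn g (gridInd N m), hgae,
    ind_coeFn 2 ((m : ℝ) / N) (((m : ℝ) + 1) / N),
    cellOp_coeFn ((m : ℝ) / N) (((m : ℝ) + 1) / N) k] with t h1 h2 h3 h4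
  rw [h1, h2, gridOp, h4, gridInd, h3]
  by_cases ht : t ∈ Ico ((m : ℝ) / N) (((m : ℝ) + 1) / N) <;> simp [ht]

theorem isMASA_multAlg : IsMASA Set.univ multAlg := by
  refine ⟨?_, fun z => ⟨fun hz => ⟨Set.mem_univ _, fun a ha => multAlg_comm a ha z hz⟩,
    fun hz => mem_multAlg_of_commute hz.2⟩⟩
  rintro _ ⟨g, rfl⟩
  exact ⟨star g, (star_mulOp g).symm⟩

end Vale.Agent.Lib.P078
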