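import Mathlib

/-!
The multiplication algebra of the unit interval acting on square integrable functions.
-/

namespace Vale.Agent.Lib.P078

open MeasureTheory
open scoped ENNReal

/-- Lebesgue measure on the unit interval. -/
noncomputable def mu01 : Measure ℝ := volume.restrict (Set.Ico 0 1)

/-- Square integrable complex functions on the unit interval. -/
abbrev L2I : Type := Lp ℂ 2 mu01

/-- The operator of multiplication by an essentially bounded function. -/
noncomputable def mulOp : Lp ℂ ∞ mu01 →L[ℂ] L2I →L[ℂ] L2I :=
  (ContinuousLinearMap.mul ℂ ℂ).holderL mu01 ∞ 2 2

/-- The algebra of all multiplication operators by essentially bounded functions. -/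
def multAlg : Set (L2I →L[ℂ] L2I) := Set.range mulOp

end Vale.Agent.Lib.P078
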