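import Vale.Agent.Lib.P078.Lower
import Vale.Agent.Lib.P078.ModelDefs

/-!
The multiplication algebra of the unit interval: interval projections, grids, density of step
functions.
-/

namespace Vale.Agent.Lib.P078

open MeasureTheory Set Filter
open scoped ENNReal

instance : IsProbabilityMeasure mu01 := ⟨by simp [mu01]⟩

/-- the indicator function of `[a, b)` -/
noncomputable def ind (p : ℝ≥0∞) (a b : ℝ) : Lp ℂ p mu01 :=
  indicatorConstLp p (measurableSet_Ico (a := a) (b := b)) (measure_ne_top mu01 _) (1 : ℂ)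

theorem ind_coeFn (p : ℝ≥0∞) (a b : ℝ) :
    ind p a b =ᵐ[mu01] (Ico a b).indicator fun _ => (1 : ℂ) := indicatorConstLp_coeFn

theorem ind_self (p : ℝ≥0∞) (a : ℝ) : ind p a a = 0 := by
  refine Lp.ext ?_
  filter_upwards [ind_coeFn p a a, Lp.coeFn_zero ℂ p mu01] with t h1 h2
  rw [h1, h2]; simp

theorem ind_add (p : ℝ≥0∞) {a b c : ℝ} (hab : a ≤ b) (hbc : b ≤ c) :
    ind p a c = ind p a b + ind p b c := by
  refine Lp.ext ?_
  filter_upwards [ind_coeFn p a c, ind_coeFn p a b, ind_coeFn p b c,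
    Lp.coeFn_add (ind p a b) (ind p b c)] with t h1 h2 h3 h4
  rw [h4, Pi.add_apply, h1, h2, h3, ← Ico_union_Ico_eq_Ico hab hbc,
    indicator_union_of_disjoint (Ico_disjoint_Ico_same)]

theorem ind_telescope (p : ℝ≥0∞) (t : ℕ → ℝ) (ht : Monotone t) (K : ℕ) :
    ∑ i ∈ Finset.range K, ind p (t i) (t (i + 1)) = ind p (t 0) (t K) := by
  induction K with
  | zero => simp [ind_self]
  | succ K ih =>
    rw [Finset.sum_range_succ, ih, ← ind_add p (ht (Nat.zero_le K)) (ht (Nat.le_succ K))]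

theorem mulOp_coeFn (g : Lp ℂ ∞ mu01) (ξ : L2I) :
    mulOp g ξ =ᵐ[mu01] fun t => g t * ξ t :=
  (ContinuousLinearMap.mul ℂ ℂ).coeFn_holder g ξ

/-- multiplication by the indicator function of `[a, b)` -/
noncomputable def cellOp (a b : ℝ) : L2I →L[ℂ] L2I := mulOp (ind ∞ a b)

theorem cellOp_coeFn (a b : ℝ) (ξ : L2I) :
    cellOp a b ξ =ᵐ[mu01] (Ico a b).indicator ξ := by
  filter_upwards [mulOp_coeFn (ind ∞ a b) ξ, ind_coeFn ∞ a b] with t h1 h2
  rw [cellOp, h1, h2]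
  by_cases ht : t ∈ Ico a b <;> simp [ht]

theorem cellOp_telescope (t : ℕ → ℝ) (ht : Monotone t) (K : ℕ) :
    ∑ i ∈ Finset.range K, cellOp (t i) (t (i + 1)) = cellOp (t 0) (t K) := by
  simp only [cellOp]
  rw [← map_sum, ind_telescope ∞ t ht K]

theorem cellOp_zero_one : cellOp 0 1 = 1 := by
  ext1 ξ
  refine Lp.ext ?_
  have hmem : ∀ᵐ t ∂mu01, t ∈ Ico (0 : ℝ) 1 := ae_restrict_mem measurableSet_Ico
  filter_upwards [cellOp_coeFn 0 1 ξ, hmem] with t h1 h2
  rw [h1, indicator_of_mem h2]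
  rfl

theorem cellOp_isStarProjection (a b : ℝ) : IsStarProjection (cellOp a b) := by
  refine ⟨?_, ?_⟩
  · show cellOp a b * cellOp a b = cellOp a b
    ext1 ξ
    refine Lp.ext ?_
    show cellOp a b (cellOp a b ξ) =ᵐ[mu01] cellOp a b ξ
    filter_upwards [cellOp_coeFn a b (cellOp a b ξ), cellOp_coeFn a b ξ] with t h1 h2
    rw [h1]
    by_cases ht : t ∈ Ico a b
    · rw [indicator_of_mem ht]
    · rw [indicator_of_notMem ht, h2, indicator_of_notMem ht]
  · refine isSelfAdjoint_of_inner fun u v => ?_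
    rw [L2.inner_def, L2.inner_def]
    refine integral_congr_ae ?_
    filter_upwards [cellOp_coeFn a b u, cellOp_coeFn a b v] with t h1 h2
    rw [h1, h2]
    by_cases ht : t ∈ Ico a b <;> simp [ht]

theorem cellOp_mul_of_disjoint {a b c d : ℝ} (h : Disjoint (Ico a b) (Ico c d)) :
    cellOp a b * cellOp c d = 0 := by
  ext1 ξ
  refine Lp.ext ?_
  show cellOp a b (cellOp c d ξ) =ᵐ[mu01] (0 : L2I)
  filter_upwards [cellOp_coeFn a b (cellOp c d ξ), cellOp_coeFn c d ξ,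
    Lp.coeFn_zero ℂ 2 mu01] with t h1 h2 h3
  rw [h1, h3]
  by_cases ht : t ∈ Ico a b
  · rw [indicator_of_mem ht, h2, indicator_of_notMem (disjoint_left.1 h ht)]; rfl
  · rw [indicator_of_notMem ht]; rfl

theorem cellOp_ind_ae (a b c d : ℝ) :
    cellOp a b (ind 2 c d) =ᵐ[mu01] (Ico a b ∩ Ico c d).indicator fun _ => (1 : ℂ) := by
  filter_upwards [cellOp_coeFn a b (ind 2 c d), ind_coeFn 2 c d] with t h1 h2
  rw [h1]
  by_cases ht : t ∈ Ico a b
  · rw [indicator_of_mem ht, h2]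
    by_cases ht' : t ∈ Ico c d
    · rw [indicator_of_mem ht', indicator_of_mem (mem_inter ht ht')]
    · rw [indicator_of_notMem ht', indicator_of_notMem (fun h => ht' h.2)]
  · rw [indicator_of_notMem ht, indicator_of_notMem (fun h => ht h.1)]

theorem cellOp_ind_of_subset {a b c d : ℝ} (h : Ico a b ⊆ Ico c d) :
    cellOp a b (ind 2 c d) = ind 2 a b := by
  refine Lp.ext ?_
  filter_upwards [cellOp_ind_ae a b c d, ind_coeFn 2 a b] with t h1 h2
  rw [h1, h2, inter_eq_left.2 h]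

theorem cellOp_ind_of_disjoint {a b c d : ℝ} (h : Disjoint (Ico a b) (Ico c d)) :
    cellOp a b (ind 2 c d) = 0 := by
  refine Lp.ext ?_
  filter_upwards [cellOp_ind_ae a b c d, Lp.coeFn_zero ℂ 2 mu01] with t h1 h2
  rw [h1, h2, disjoint_iff_inter_eq_empty.1 h]
  simp

theorem norm_ind_sq {a b : ℝ} (h0 : 0 ≤ a) (hab : a ≤ b) (h1 : b ≤ 1) :
    ‖ind 2 a b‖ ^ 2 = b - a := by
  have hsub : Ico a b ⊆ Ico 0 1 := Ico_subset_Ico h0 h1
  have hm : mu01.real (Ico a b) = b - a := by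
    rw [measureReal_def, mu01, Measure.restrict_apply measurableSet_Ico, inter_eq_left.2 hsub,
      Real.volume_Ico, ENNReal.toReal_ofReal (by linarith)]
  rw [ind, norm_indicatorConstLp (by norm_num) (by norm_num), hm]
  simp only [norm_one, one_mul, ENNReal.toReal_ofNat]
  rw [← Real.sqrt_eq_rpow, Real.sq_sqrt (by linarith)]

/-! ### grids -/

/-- the projection of the `j`-th cell of the grid with `n` cells -/
noncomputable def gridOp (n : ℕ) (j : Fin n) : L2I →L[ℂ] L2I :=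
  cellOp ((j : ℝ) / n) (((j : ℝ) + 1) / n)

/-- the indicator function of the `j`-th cell of the grid with `n` cells -/
noncomputable def gridInd (n : ℕ) (j : Fin n) : L2I := ind 2 ((j : ℝ) / n) (((j : ℝ) + 1) / n)

/-- the unit vector of the `j`-th cell of the grid with `n` cells -/
noncomputable def gridVec (n : ℕ) (j : Fin n) : L2I := ((Real.sqrt n : ℝ) : ℂ) • gridInd n j

theorem grid_disjoint {n : ℕ} {j k : Fin n} (h : j ≠ k) :
    Disjoint (Ico ((j : ℝ) / n) (((j : ℝ) + 1) / n)) (Ico ((k : ℝ) / n) (((k : ℝ) + 1) / n)) := by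
  have hn : (0 : ℝ) < n := by
    have : 0 < n := lt_of_le_of_lt (Nat.zero_le _) j.2
    exact_mod_cast this
  rcases lt_or_gt_of_ne (Fin.val_ne_of_ne h) with hlt | hlt
  · rw [Ico_disjoint_Ico]
    have : ((j : ℝ) + 1) ≤ k := by exact_mod_cast hlt
    have h2 : ((j : ℝ) + 1) / n ≤ (k : ℝ) / n := by gcongr
    exact (min_le_left _ _).trans (h2.trans (le_max_right _ _))
  · rw [Ico_disjoint_Ico]
    have : ((k : ℝ) + 1) ≤ j := by exact_mod_cast hlt
    have h2 : ((k : ℝ) + 1) / n ≤ (j : ℝ) / n := by gcongr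
    exact (min_le_right _ _).trans (h2.trans (le_max_left _ _))

theorem isPOU_gridOp {n : ℕ} (hn : 0 < n) : IsPOU (gridOp n) where
  proj j := cellOp_isStarProjection _ _
  orth j k h := cellOp_mul_of_disjoint (grid_disjoint h)
  sum_eq := by
    have hn' : (n : ℝ) ≠ 0 := by exact_mod_cast hn.ne'
    have h := cellOp_telescope (fun i => (i : ℝ) / n)
      (fun a b hab => by
        have : (a : ℝ) ≤ b := by exact_mod_cast hab
        show (a : ℝ) / n ≤ (b : ℝ) / n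
        gcongr) n
    simp only [Nat.cast_zero, zero_div, div_self hn', Nat.cast_add, Nat.cast_one] at h
    rw [cellOp_zero_one] at h
    rw [← h, ← Fin.sum_univ_eq_sum_range (fun i => cellOp ((i : ℝ) / n) (((i : ℝ) + 1) / n)) n]
    rfl

theorem gridOp_gridInd {n : ℕ} (j k : Fin n) :
    gridOp n j (gridInd n k) = if j = k then gridInd n k else 0 := by
  split_ifs with h
  · subst h; exact cellOp_ind_of_subset subset_rfl
  · exact cellOp_ind_of_disjoint (grid_disjoint h)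

theorem gridOp_gridVec {n : ℕ} (j k : Fin n) :
    gridOp n j (gridVec n k) = if j = k then gridVec n k else 0 := by
  rw [gridVec, map_smul, gridOp_gridInd]
  split_ifs <;> simp

theorem grid_bounds {n : ℕ} (j : Fin n) :
    0 ≤ (j : ℝ) / n ∧ (j : ℝ) / n ≤ ((j : ℝ) + 1) / n ∧ ((j : ℝ) + 1) / n ≤ 1 := by
  have hn : (0 : ℝ) < n := by
    have : 0 < n := lt_of_le_of_lt (Nat.zero_le _) j.2
    exact_mod_cast this
  refine ⟨by positivity, by gcongr; linarith, ?_⟩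
  rw [div_le_one hn]
  exact_mod_cast j.2

theorem norm_gridInd_sq {n : ℕ} (j : Fin n) : ‖gridInd n j‖ ^ 2 = 1 / (n : ℝ) := by
  obtain ⟨h0, h1, h2⟩ := grid_bounds j
  rw [gridInd, norm_ind_sq h0 h1 h2]
  ring

theorem gridVec_orthonormal {n : ℕ} (hn : 0 < n) : Orthonormal ℂ (gridVec n) := by
  have hn' : (0 : ℝ) < n := by exact_mod_cast hn
  refine ⟨fun j => ?_, fun j k hjk => ?_⟩
  · have h1 : ‖gridVec n j‖ ^ 2 = 1 := by
      rw [gridVec, norm_smul, mul_pow, norm_gridInd_sq, Complex.norm_real,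
        Real.norm_of_nonneg (Real.sqrt_nonneg _), Real.sq_sqrt hn'.le]
      field_simp
    nlinarith [norm_nonneg (gridVec n j)]
  · have h1 : gridVec n j = gridOp n j (gridVec n j) := by rw [gridOp_gridVec, if_pos rfl]
    show inner ℂ (gridVec n j) (gridVec n k) = 0
    rw [h1, (isPOU_gridOp hn).inner_left, gridOp_gridVec, if_neg hjk, inner_zero_right]

/-! ### the fine grid indexed by blocks and positions -/

theorem IsPOU.comp_equiv {H : Type*} [NormedAddCommGroup H] [InnerProductSpace ℂ H]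
    [CompleteSpace H] {J J' : Type*} [Fintype J] [Fintype J'] {e : J → H →L[ℂ] H}
    (he : IsPOU e) (σ : J' ≃ J) : IsPOU (fun j => e (σ j)) where
  proj j := he.proj _
  orth j k h := he.orth _ _ (σ.injective.ne h)
  sum_eq := by rw [Equiv.sum_comp σ e]; exact he.sum_eq

noncomputable def fineOp (N0 L : ℕ) (j : Fin N0 × Fin L) : L2I →L[ℂ] L2I :=
  gridOp (N0 * L) (finProdFinEquiv j)

noncomputable def fineVec (N0 L : ℕ) (j : Fin N0 × Fin L) : L2I :=
  gridVec (N0 * L) (finProdFinEquiv j)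

theorem isGrid_fine {N0 L : ℕ} (h : 0 < N0 * L) : IsGrid (fineOp N0 L) (fineVec N0 L) where
  pou := (isPOU_gridOp h).comp_equiv finProdFinEquiv
  on := (gridVec_orthonormal h).comp _ finProdFinEquiv.injective
  act j k := by
    simp only [fineOp, fineVec, gridOp_gridVec, EmbeddingLike.apply_eq_iff_eq]

theorem sum_gridInd_fine {N0 L : ℕ} (hN0 : 0 < N0) (hL : 0 < L) (m : Fin N0) :
    ∑ i : Fin L, gridInd (N0 * L) (finProdFinEquiv (m, i)) = gridInd N0 m := by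
  have hN0' : (N0 : ℝ) ≠ 0 := by exact_mod_cast hN0.ne'
  have hL' : (L : ℝ) ≠ 0 := by exact_mod_cast hL.ne'
  have h := ind_telescope 2 (fun i => ((i : ℝ) + L * m) / (N0 * L))
    (fun a b hab => by
      have : (a : ℝ) ≤ b := by exact_mod_cast hab
      show ((a : ℝ) + L * m) / (N0 * L) ≤ ((b : ℝ) + L * m) / (N0 * L)
      gcongr) L
  have e0 : (((0 : ℕ) : ℝ) + L * m) / (N0 * L) = (m : ℝ) / N0 := by
    field_simp; ring
  have e1 : ((L : ℝ) + L * m) / (N0 * L) = ((m : ℝ) + 1) / N0 := by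
    field_simp; ring
  simp only [e0, e1] at h
  rw [gridInd, ← h, ← Fin.sum_univ_eq_sum_range
    (fun i => ind 2 (((i : ℝ) + L * m) / (N0 * L)) ((((i + 1 : ℕ) : ℝ) + L * m) / (N0 * L))) L]
  refine Finset.sum_congr rfl fun i _ => ?_
  simp only [gridInd, finProdFinEquiv_apply_val]
  congr 1 <;> push_cast <;> ring

theorem blockVec_fine {N0 L : ℕ} (hN0 : 0 < N0) (hL : 0 < L) (m : Fin N0) :
    blockVec (fineVec N0 L) m
      = ((((Real.sqrt L : ℝ) : ℂ)⁻¹) * ((Real.sqrt ((N0 * L : ℕ) : ℝ) : ℝ) : ℂ)) • gridInd N0 m := by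
  simp only [blockVec, fineVec, gridVec]
  rw [← Finset.smul_sum, sum_gridInd_fine hN0 hL, smul_smul]

theorem gridInd_mem_span {N0 L : ℕ} (hN0 : 0 < N0) (hL : 0 < L) (m : Fin N0) :
    gridInd N0 m ∈ Submodule.span ℂ (Set.range (blockVec (fineVec N0 L))) := by
  have hs : ((((Real.sqrt L : ℝ) : ℂ)⁻¹) * ((Real.sqrt ((N0 * L : ℕ) : ℝ) : ℝ) : ℂ)) ≠ 0 := by
    have h1 : Real.sqrt L ≠ 0 := (Real.sqrt_pos.2 (by exact_mod_cast hL)).ne'
    have h2 : Real.sqrt ((N0 * L : ℕ) : ℝ) ≠ 0 :=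
      (Real.sqrt_pos.2 (by exact_mod_cast Nat.mul_pos hN0 hL)).ne'
    refine mul_ne_zero (inv_ne_zero ?_) ?_ <;> exact_mod_cast ‹_›
  have h := blockVec_fine hN0 hL m
  have h2 : gridInd N0 m
      = ((((Real.sqrt L : ℝ) : ℂ)⁻¹) * ((Real.sqrt ((N0 * L : ℕ) : ℝ) : ℝ) : ℂ))⁻¹
        • blockVec (fineVec N0 L) m := by
    rw [h, smul_smul, inv_mul_cancel₀ hs, one_smul]
  rw [h2]
  exact Submodule.smul_mem _ _ (Submodule.subset_span ⟨m, rfl⟩)

/-! ### the multiplication algebra -/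

theorem gridOp_mem_multAlg {n : ℕ} (j : Fin n) : gridOp n j ∈ multAlg := ⟨_, rfl⟩

theorem diagOp_mem_multAlg {N0 L : ℕ} (w : Fin N0 × Fin L → ℂ) :
    diagOp (fineOp N0 L) w ∈ multAlg := by
  refine ⟨∑ j, w j • ind ∞ (((finProdFinEquiv j : Fin (N0 * L)) : ℝ) / ((N0 * L : ℕ) : ℝ))
    ((((finProdFinEquiv j : Fin (N0 * L)) : ℝ) + 1) / ((N0 * L : ℕ) : ℝ)), ?_⟩
  simp only [map_sum, map_smul, diagOp, fineOp, gridOp, cellOp]

theorem multAlg_comm : ∀ a ∈ multAlg, ∀ b ∈ multAlg, a * b = b * a := by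
  rintro _ ⟨g, rfl⟩ _ ⟨g', rfl⟩
  ext1 ξ
  refine Lp.ext ?_
  show mulOp g (mulOp g' ξ) =ᵐ[mu01] mulOp g' (mulOp g ξ)
  filter_upwards [mulOp_coeFn g (mulOp g' ξ), mulOp_coeFn g' ξ, mulOp_coeFn g' (mulOp g ξ),
    mulOp_coeFn g ξ] with t h1 h2 h3 h4
  rw [h1, h2, h3, h4]
  ring

/-! ### density of step functions -/

theorem gridOp_smul_one {n : ℕ} (j : Fin n) (c : ℂ) :
    gridOp n j (c • ind 2 0 1) = c • gridInd n j := by
  obtain ⟨h0, _, h2⟩ := grid_bounds j
  rw [map_smul, gridOp, cellOp_ind_of_subset (Ico_subset_Ico h0 h2), gridInd]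

theorem dense_step (ξ : L2I) {δ : ℝ} (hδ : 0 < δ) :
    ∀ᶠ N : ℕ in atTop, ∃ y ∈ Submodule.span ℂ (Set.range (gridInd N)), ‖ξ - y‖ < δ := by
  have hdense := BoundedContinuousFunction.toLp_denseRange (E := ℂ) (μ := mu01) (p := 2) ℂ
    (by norm_num)
  obtain ⟨g, hg⟩ := hdense.exists_dist_lt ξ (half_pos hδ)
  obtain ⟨G, hG⟩ : ∃ G : L2I, G = BoundedContinuousFunction.toLp 2 mu01 ℂ g := ⟨_, rfl⟩
  rw [← hG] at hg
  have hGae : G =ᵐ[mu01] g := by rw [hG]; exact BoundedContinuousFunction.coeFn_toLp 2 mu01 ℂ g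
  have huc := isCompact_Icc.uniformContinuousOn_of_continuous
    (g.continuous.continuousOn (s := Icc (0 : ℝ) 1))
  rw [Metric.uniformContinuousOn_iff] at huc
  obtain ⟨η, hη, hηg⟩ := huc (δ / 2) (half_pos hδ)
  have hev : ∀ᶠ N : ℕ in atTop, 1 / (N : ℝ) < η := by
    have := tendsto_one_div_atTop_nhds_zero_nat (𝕜 := ℝ)
    exact this.eventually (gt_mem_nhds hη)
  filter_upwards [hev, eventually_gt_atTop 0] with N hN hNpos
  have hN' : (0 : ℝ) < N := by exact_mod_cast hNpos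
  have hpou := isPOU_gridOp hNpos
  refine ⟨∑ m : Fin N, g ((m : ℝ) / N) • gridInd N m,
    Submodule.sum_mem _ fun m _ => Submodule.smul_mem _ _ (Submodule.subset_span ⟨m, rfl⟩), ?_⟩
  have e1 : G - ∑ m : Fin N, g ((m : ℝ) / N) • gridInd N m
      = ∑ m : Fin N, gridOp N m (G - g ((m : ℝ) / N) • ind 2 0 1) := by
    simp only [map_sub, gridOp_smul_one, Finset.sum_sub_distrib, hpou.sum_apply]
  have e2 : ∀ m : Fin N, ‖gridOp N m (G - g ((m : ℝ) / N) • ind 2 0 1)‖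
      ≤ δ / 2 * ‖gridInd N m‖ := by
    intro m
    obtain ⟨h0, h1, h2⟩ := grid_bounds m
    refine Lp.norm_le_mul_norm_of_ae_le_mul ?_
    filter_upwards [cellOp_coeFn ((m : ℝ) / N) (((m : ℝ) + 1) / N)
        (G - g ((m : ℝ) / N) • ind 2 0 1),
      Lp.coeFn_sub G (g ((m : ℝ) / N) • ind 2 0 1), Lp.coeFn_smul (g ((m : ℝ) / N)) (ind 2 0 1),
      hGae, ind_coeFn 2 0 1, ind_coeFn 2 ((m : ℝ) / N) (((m : ℝ) + 1) / N)]
      with t a1 a2 a3 a4 a5 a6
    rw [gridOp, a1, gridInd, a6]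
    by_cases ht : t ∈ Ico ((m : ℝ) / N) (((m : ℝ) + 1) / N)
    · have ht01 : t ∈ Ico (0 : ℝ) 1 := Ico_subset_Ico h0 h2 ht
      rw [indicator_of_mem ht, indicator_of_mem ht, a2, Pi.sub_apply, a3, Pi.smul_apply, a4, a5,
        indicator_of_mem ht01]
      simp only [smul_eq_mul, mul_one, norm_one]
      rw [← dist_eq_norm]
      refine (hηg t ⟨ht01.1, ht01.2.le⟩ _ ⟨h0, h1.trans h2⟩ ?_).le
      rw [Real.dist_eq, abs_of_nonneg (by linarith [ht.1])]
      have : ((m : ℝ) + 1) / N = (m : ℝ) / N + 1 / N := by ring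
      linarith [ht.2]
    · rw [indicator_of_notMem ht, indicator_of_notMem ht]
      simp
  have e3 : ‖G - ∑ m : Fin N, g ((m : ℝ) / N) • gridInd N m‖ ^ 2 ≤ (δ / 2) ^ 2 := by
    rw [e1, norm_sq_sum_of_orth _ _ (fun j _ k _ hjk => hpou.inner_orth hjk _ _)]
    calc ∑ m : Fin N, ‖gridOp N m (G - g ((m : ℝ) / N) • ind 2 0 1)‖ ^ 2
        ≤ ∑ m : Fin N, (δ / 2) ^ 2 * (1 / (N : ℝ)) := by
          refine Finset.sum_le_sum fun m _ => ?_
          rw [← norm_gridInd_sq m, ← mul_pow]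
          have := e2 m
          gcongr
      _ = (δ / 2) ^ 2 := by
          simp only [Finset.sum_const, Finset.card_univ, Fintype.card_fin, nsmul_eq_mul]
          field_simp
  have e4 : ‖G - ∑ m : Fin N, g ((m : ℝ) / N) • gridInd N m‖ ≤ δ / 2 :=
    abs_le_of_sq_le_sq' e3 (by positivity) |>.2
  rw [dist_eq_norm] at hg
  calc ‖ξ - ∑ m : Fin N, g ((m : ℝ) / N) • gridInd N m‖
      = ‖(ξ - G) + (G - ∑ m : Fin N, g ((m : ℝ) / N) • gridInd N m)‖ := by congr 1; abel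
    _ ≤ ‖ξ - G‖ + ‖G - ∑ m : Fin N, g ((m : ℝ) / N) • gridInd N m‖ := norm_add_le _ _
    _ < δ := by linarith

end Vale.Agent.Lib.P078
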