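import Vale.Agent.Lib.P078.Hilbert
import Vale.Agent.Lib.P078.Colour

/-!
The abstract upper bound: a random colouring of a fine grid of cells paves every self-adjoint
operator, compressed to the coarse step vectors, up to `‖x‖ / r` plus a small error.
-/

namespace Vale.Agent.Lib.P078

open Finset

variable {H : Type*} [NormedAddCommGroup H] [InnerProductSpace ℂ H] [CompleteSpace H]

theorem key_identity {r : ℕ} (v : Fin r → H) (y : H →L[ℂ] H) :
    ∑ l, ∑ l', inner ℂ (v l - v l') (y (v l - v l'))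
      = 2 * (r : ℂ) * ∑ l, inner ℂ (v l) (y (v l)) - 2 * inner ℂ (∑ l, v l) (y (∑ l, v l)) := by
  simp only [map_sub, inner_sub_left, inner_sub_right, map_sum, sum_inner, inner_sum,
    Finset.sum_sub_distrib, Finset.sum_const, Finset.card_univ, Fintype.card_fin, nsmul_eq_mul]
  rw [Finset.sum_comm (f := fun l l' => inner ℂ (v l') (y (v l))), ← Finset.mul_sum]
  ring

theorem inner_pinch {r : ℕ} {p : Fin r → H →L[ℂ] H} (hp : IsPOU p) (x : H →L[ℂ] H) (u v : H) :
    inner ℂ u (pinch p x v) = ∑ l, inner ℂ (p l u) (x (p l v)) := by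
  simp only [pinch, _root_.sum_apply, mul_apply_eq_comp, inner_sum]
  exact Finset.sum_congr rfl fun l _ => (hp.inner_left l _ _).symm

theorem pinch_sub_bound {r : ℕ} (hr : 0 < r) {p : Fin r → H →L[ℂ] H} (hp : IsPOU p)
    (x : H →L[ℂ] H) (f : H) :
    ‖inner ℂ f ((pinch p x - ((1 : ℂ) / r) • x) f)‖ ≤ ‖x‖ * ‖f‖ ^ 2 := by
  have hr' : (0 : ℝ) < r := by exact_mod_cast hr
  have hrc : (r : ℂ) ≠ 0 := by exact_mod_cast hr.ne'
  have hK := key_identity (fun l => p l f) x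
  rw [hp.sum_apply] at hK
  have e1 : inner ℂ f ((pinch p x - ((1 : ℂ) / r) • x) f)
      = (1 / (2 * (r : ℂ))) * ∑ l, ∑ l', inner ℂ (p l f - p l' f) (x (p l f - p l' f)) := by
    rw [hK, _root_.sub_apply, inner_sub_right, inner_pinch hp,
      _root_.smul_apply, inner_smul_right]
    field_simp
  have e2 : ∀ l l', ‖inner ℂ (p l f - p l' f) (x (p l f - p l' f))‖
      ≤ ‖x‖ * (‖p l f‖ ^ 2 + ‖p l' f‖ ^ 2) := by
    intro l l'
    have a1 : ‖inner ℂ (p l f - p l' f) (x (p l f - p l' f))‖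
        ≤ ‖p l f - p l' f‖ * ‖x (p l f - p l' f)‖ := norm_inner_le_norm _ _
    have a2 : ‖x (p l f - p l' f)‖ ≤ ‖x‖ * ‖p l f - p l' f‖ := x.le_opNorm _
    have a3 : ‖p l f - p l' f‖ ^ 2 ≤ ‖p l f‖ ^ 2 + ‖p l' f‖ ^ 2 := by
      by_cases h : l = l'
      · subst h; simp
      · rw [@norm_sub_sq ℂ, hp.inner_orth h]; simp
    calc ‖inner ℂ (p l f - p l' f) (x (p l f - p l' f))‖
        ≤ ‖p l f - p l' f‖ * (‖x‖ * ‖p l f - p l' f‖) := a1.trans (by gcongr)
      _ = ‖x‖ * ‖p l f - p l' f‖ ^ 2 := by ring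
      _ ≤ _ := by gcongr
  have e3 : ∑ l, ∑ l', ‖x‖ * (‖p l f‖ ^ 2 + ‖p l' f‖ ^ 2) = 2 * r * (‖x‖ * ‖f‖ ^ 2) := by
    simp only [← Finset.mul_sum, Finset.sum_add_distrib, Finset.sum_const, Finset.card_univ,
      Fintype.card_fin, nsmul_eq_mul, hp.sum_norm_sq]
    ring
  rw [e1, norm_mul]
  have e4 : ‖∑ l, ∑ l', inner ℂ (p l f - p l' f) (x (p l f - p l' f))‖
      ≤ 2 * r * (‖x‖ * ‖f‖ ^ 2) := by
    rw [← e3]
    refine (norm_sum_le _ _).trans (Finset.sum_le_sum fun l _ => ?_)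
    exact (norm_sum_le _ _).trans (Finset.sum_le_sum fun l' _ => e2 l l')
  have e5 : ‖(1 / (2 * (r : ℂ)))‖ = 1 / (2 * r) := by
    rw [norm_div, norm_mul]; simp
  rw [e5]
  calc 1 / (2 * (r : ℝ)) * ‖∑ l, ∑ l', inner ℂ (p l f - p l' f) (x (p l f - p l' f))‖
      ≤ 1 / (2 * (r : ℝ)) * (2 * r * (‖x‖ * ‖f‖ ^ 2)) := by gcongr
    _ = _ := by field_simp

theorem pinch_isSelfAdjoint {r : ℕ} {p : Fin r → H →L[ℂ] H} (hp : IsPOU p) {x : H →L[ℂ] H}
    (hx : IsSelfAdjoint x) : IsSelfAdjoint (pinch p x) := by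
  unfold pinch
  refine isSelfAdjoint_sum _ fun l _ => ?_
  have := hx.conjugate (p l)
  rwa [(hp.proj l).isSelfAdjoint.star_eq] at this

/-- Grid data: cells `(m, i)` (block `m`, position `i`), their projections and unit vectors. -/
structure IsGrid {N0 L : ℕ} (e : Fin N0 × Fin L → H →L[ℂ] H) (h : Fin N0 × Fin L → H) : Prop where
  pou : IsPOU e
  on : Orthonormal ℂ h
  act : ∀ j k, e j (h k) = if j = k then h k else 0

/-- the normalised sum of the unit vectors of the cells of a block -/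
noncomputable def blockVec {N0 L : ℕ} (h : Fin N0 × Fin L → H) (m : Fin N0) : H :=
  (((Real.sqrt L : ℝ) : ℂ)⁻¹) • ∑ i, h (m, i)

section grid

variable {N0 L : ℕ} {e : Fin N0 × Fin L → H →L[ℂ] H} {h : Fin N0 × Fin L → H}

theorem inner_blockVec (T : H →L[ℂ] H) (m k : Fin N0) :
    inner ℂ (blockVec h m) (T (blockVec h k))
      = (1 / (L : ℂ)) * ∑ i, ∑ i', inner ℂ (h (m, i)) (T (h (k, i'))) := by
  have hs : (starRingEnd ℂ) (((Real.sqrt L : ℝ) : ℂ)⁻¹) * (((Real.sqrt L : ℝ) : ℂ)⁻¹)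
      = 1 / (L : ℂ) := by
    rw [map_inv₀, Complex.conj_ofReal, ← mul_inv, ← Complex.ofReal_mul,
      Real.mul_self_sqrt (Nat.cast_nonneg L)]
    simp
  simp only [blockVec, map_smul, map_sum, inner_smul_left, inner_smul_right, sum_inner, inner_sum]
  rw [← Finset.mul_sum, ← mul_assoc, mul_comm (((Real.sqrt L : ℝ) : ℂ)⁻¹), hs, Finset.sum_comm]

theorem blockVec_orthonormal (hg : IsGrid e h) (hL : 0 < L) : Orthonormal ℂ (blockVec h) := by
  have hLc : (L : ℂ) ≠ 0 := by exact_mod_cast hL.ne'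
  rw [orthonormal_iff_ite]
  intro m k
  have := inner_blockVec (h := h) (1 : H →L[ℂ] H) m k
  simp only [one_apply_eq_self] at this
  rw [this]
  simp only [orthonormal_iff_ite.1 hg.on, Prod.mk.injEq]
  by_cases hmk : m = k
  · simp [hmk, hLc]
  · simp [hmk]

theorem diagOp_apply_cell (hg : IsGrid e h) (w : Fin N0 × Fin L → ℂ) (k : Fin N0 × Fin L) :
    diagOp e w (h k) = w k • h k := by
  rw [diagOp_apply]
  simp [hg.act]

theorem diagOp_apply_blockVec (hg : IsGrid e h) (α : Fin N0 → ℂ) (m : Fin N0) :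
    diagOp e (fun j => α j.1) (blockVec h m) = α m • blockVec h m := by
  simp only [blockVec, map_smul, map_sum, diagOp_apply_cell hg, ← Finset.smul_sum]
  rw [smul_comm]

/-- the colour classes -/
def colourProj (e : Fin N0 × Fin L → H →L[ℂ] H) {r : ℕ} (c : Fin N0 × Fin L → Fin r) (l : Fin r) :
    H →L[ℂ] H := diagOp e (fun j => if c j = l then (1 : ℂ) else 0)

theorem isPOU_colourProj (hg : IsGrid e h) {r : ℕ} (c : Fin N0 × Fin L → Fin r) :
    IsPOU (colourProj e c) := isPOU_colour hg.pou c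

theorem inner_pinch_cell (hg : IsGrid e h) {r : ℕ} (c : Fin N0 × Fin L → Fin r) (x : H →L[ℂ] H)
    (j k : Fin N0 × Fin L) :
    inner ℂ (h j) (pinch (colourProj e c) x (h k))
      = (if c j = c k then (1 : ℂ) else 0) * inner ℂ (h j) (x (h k)) := by
  rw [inner_pinch (isPOU_colourProj hg c)]
  simp only [colourProj, diagOp_apply_cell hg, map_smul, inner_smul_left, inner_smul_right]
  rw [Finset.sum_eq_single (c j)]
  · simp [eq_comm]
  · intro l _ hl
    simp [hl.symm]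
  · intro hh; exact absurd (Finset.mem_univ _) hh

end grid

section core

variable {N0 L r : ℕ} {e : Fin N0 × Fin L → H →L[ℂ] H} {h : Fin N0 × Fin L → H}

/-- the diagonal correction on a block -/
noncomputable def corr (e : Fin N0 × Fin L → H →L[ℂ] H) (h : Fin N0 × Fin L → H) (x : H →L[ℂ] H)
    (c : Fin N0 × Fin L → Fin r) (m : Fin N0) : ℝ :=
  (inner ℂ (blockVec h m) ((pinch (colourProj e c) x - ((1 : ℂ) / r) • x) (blockVec h m))).re

/-- the diagonal correction as an operator -/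
noncomputable def corrOp (e : Fin N0 × Fin L → H →L[ℂ] H) (h : Fin N0 × Fin L → H)
    (x : H →L[ℂ] H) (c : Fin N0 × Fin L → Fin r) : H →L[ℂ] H :=
  diagOp e (fun j => ((corr e h x c j.1 : ℝ) : ℂ))

/-- the remainder -/
noncomputable def remOp (e : Fin N0 × Fin L → H →L[ℂ] H) (h : Fin N0 × Fin L → H)
    (x : H →L[ℂ] H) (c : Fin N0 × Fin L → Fin r) : H →L[ℂ] H :=
  pinch (colourProj e c) x - corrOp e h x c - ((1 : ℂ) / r) • x

theorem abs_corr_le (hg : IsGrid e h) (hL : 0 < L) (hr : 0 < r) (x : H →L[ℂ] H)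
    (c : Fin N0 × Fin L → Fin r) (m : Fin N0) : |corr e h x c m| ≤ ‖x‖ := by
  have h1 := pinch_sub_bound hr (isPOU_colourProj hg c) x (blockVec h m)
  rw [(blockVec_orthonormal hg hL).norm_eq_one] at h1
  have h2 := Complex.abs_re_le_norm
    (inner ℂ (blockVec h m) ((pinch (colourProj e c) x - ((1 : ℂ) / r) • x) (blockVec h m)))
  unfold corr
  linarith

theorem rem_diag (hg : IsGrid e h) (hL : 0 < L) {x : H →L[ℂ] H} (hx : IsSelfAdjoint x)
    (c : Fin N0 × Fin L → Fin r) (m : Fin N0) :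
    inner ℂ (blockVec h m) (remOp e h x c (blockVec h m)) = 0 := by
  have hT : IsSelfAdjoint (pinch (colourProj e c) x - ((1 : ℂ) / r) • x) := by
    refine (pinch_isSelfAdjoint (isPOU_colourProj hg c) hx).sub (IsSelfAdjoint.smul ?_ hx)
    simp [isSelfAdjoint_iff]
  have h1 : (starRingEnd ℂ) (inner ℂ (blockVec h m)
      ((pinch (colourProj e c) x - ((1 : ℂ) / r) • x) (blockVec h m)))
      = inner ℂ (blockVec h m) ((pinch (colourProj e c) x - ((1 : ℂ) / r) • x) (blockVec h m)) := by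
    rw [inner_conj_symm, sa_inner hT]
  have h2 := Complex.conj_eq_iff_re.1 h1
  have h3 : remOp e h x c = (pinch (colourProj e c) x - ((1 : ℂ) / r) • x) - corrOp e h x c := by
    unfold remOp; abel
  rw [h3, _root_.sub_apply, inner_sub_right, corrOp,
    diagOp_apply_blockVec hg (fun m => ((corr e h x c m : ℝ) : ℂ)), inner_smul_right,
    inner_self_eq_norm_sq_to_K, (blockVec_orthonormal hg hL).norm_eq_one, ← h2]
  simp [corr]

theorem rem_offdiag (hg : IsGrid e h) (x : H →L[ℂ] H) (c : Fin N0 × Fin L → Fin r)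
    {m k : Fin N0} (hmk : m ≠ k) :
    inner ℂ (blockVec h m) (remOp e h x c (blockVec h k))
      = (1 / (L : ℂ)) * ∑ t : Fin L × Fin L,
          ((chi c (m, t.1) (k, t.2) : ℝ) : ℂ) * inner ℂ (h (m, t.1)) (x (h (k, t.2))) := by
  rw [inner_blockVec, Fintype.sum_prod_type]
  congr 1
  refine Finset.sum_congr rfl fun i _ => Finset.sum_congr rfl fun i' _ => ?_
  have hne : ((m, i) : Fin N0 × Fin L) ≠ (k, i') := fun hh => hmk (congrArg Prod.fst hh)
  simp only [remOp, _root_.sub_apply, _root_.smul_apply, inner_sub_right, inner_pinch_cell hg,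
    corrOp, diagOp_apply_cell hg, inner_smul_right, hg.on.inner_eq_zero hne, mul_zero, sub_zero]
  by_cases hc : c (m, i) = c (k, i')
  · simp [chi, hc]; ring
  · simp [chi, hc]

theorem sum_rem_offdiag_le [NeZero r] (hg : IsGrid e h) (hL : 0 < L) (x : H →L[ℂ] H)
    {m k : Fin N0} (hmk : m ≠ k) :
    ∑ c : Fin N0 × Fin L → Fin r, ‖inner ℂ (blockVec h m) (remOp e h x c (blockVec h k))‖ ^ 2
      ≤ (Fintype.card (Fin N0 × Fin L → Fin r) : ℝ) * (‖x‖ ^ 2 / L) := by
  have hL' : (0 : ℝ) < L := by exact_mod_cast hL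
  have hsm := sum_norm_sq_le_of_orth (Ω := Fin N0 × Fin L → Fin r) (T := Fin L × Fin L)
    (fun t c => chi c (m, t.1) (k, t.2)) (Fintype.card (Fin N0 × Fin L → Fin r) : ℝ)
    (by
      intro t s hts
      by_cases h1 : t.1 = s.1
      · have h2 : t.2 ≠ s.2 := fun h2 => hts (Prod.ext h1 h2)
        simp only [chi_comm _ (m, _) (k, _)]
        refine sum_chi_mul_chi_eq_zero ?_ ?_ ?_
        · exact fun hh => hmk (congrArg Prod.fst hh).symm
        · exact fun hh => h2 (by simpa using hh)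
        · exact fun hh => hmk (congrArg Prod.fst hh).symm
      · refine sum_chi_mul_chi_eq_zero ?_ ?_ ?_
        · exact fun hh => hmk (congrArg Prod.fst hh)
        · exact fun hh => h1 (by simpa using hh)
        · exact fun hh => hmk (congrArg Prod.fst hh))
    (by
      intro t
      calc ∑ c : Fin N0 × Fin L → Fin r, chi c (m, t.1) (k, t.2) ^ 2
          ≤ ∑ _c : Fin N0 × Fin L → Fin r, (1 : ℝ) := Finset.sum_le_sum fun c _ => chi_sq_le_one _ _ _
        _ = _ := by simp)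
    (fun t => inner ℂ (h (m, t.1)) (x (h (k, t.2))))
  have hb : ∑ t : Fin L × Fin L, ‖inner ℂ (h (m, t.1)) (x (h (k, t.2)))‖ ^ 2 ≤ L * ‖x‖ ^ 2 := by
    rw [Fintype.sum_prod_type_right]
    calc ∑ i' : Fin L, ∑ i : Fin L, ‖inner ℂ (h (m, i)) (x (h (k, i')))‖ ^ 2
        ≤ ∑ _i' : Fin L, ‖x‖ ^ 2 := by
          refine Finset.sum_le_sum fun i' _ => ?_
          have hon : Orthonormal ℂ (fun i : Fin L => h (m, i)) :=
            hg.on.comp _ (fun a b hab => by simpa using hab)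
          have h1 := hon.sum_inner_products_le (x (h (k, i'))) (s := Finset.univ)
          have h2 : ‖x (h (k, i'))‖ ≤ ‖x‖ := by
            have := x.le_opNorm (h (k, i'))
            rwa [hg.on.norm_eq_one, mul_one] at this
          calc _ ≤ ‖x (h (k, i'))‖ ^ 2 := h1
            _ ≤ ‖x‖ ^ 2 := by gcongr
      _ = L * ‖x‖ ^ 2 := by simp
  have e1 : ∀ c : Fin N0 × Fin L → Fin r,
      ‖inner ℂ (blockVec h m) (remOp e h x c (blockVec h k))‖ ^ 2
        = (1 / (L : ℝ)) ^ 2 * ‖∑ t : Fin L × Fin L,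
          ((chi c (m, t.1) (k, t.2) : ℝ) : ℂ) * inner ℂ (h (m, t.1)) (x (h (k, t.2)))‖ ^ 2 := by
    intro c
    rw [rem_offdiag hg x c hmk, norm_mul, mul_pow]
    congr 2
    simp
  simp only [e1, ← Finset.mul_sum]
  calc (1 / (L : ℝ)) ^ 2 * ∑ c : Fin N0 × Fin L → Fin r, ‖∑ t : Fin L × Fin L,
          ((chi c (m, t.1) (k, t.2) : ℝ) : ℂ) * inner ℂ (h (m, t.1)) (x (h (k, t.2)))‖ ^ 2
      ≤ (1 / (L : ℝ)) ^ 2 * ((Fintype.card (Fin N0 × Fin L → Fin r) : ℝ) * (L * ‖x‖ ^ 2)) := by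
        gcongr
        exact hsm.trans (by gcongr)
    _ = _ := by field_simp

theorem exists_colouring [NeZero r] (hg : IsGrid e h) (hL : 0 < L) {x : H →L[ℂ] H}
    (hx : IsSelfAdjoint x) :
    ∃ c : Fin N0 × Fin L → Fin r,
      ∑ m, ∑ k, ‖inner ℂ (blockVec h m) (remOp e h x c (blockVec h k))‖ ^ 2
        ≤ (N0 : ℝ) ^ 2 * (‖x‖ ^ 2 / L) := by
  have hent : ∀ m k : Fin N0,
      ∑ c : Fin N0 × Fin L → Fin r, ‖inner ℂ (blockVec h m) (remOp e h x c (blockVec h k))‖ ^ 2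
        ≤ (Fintype.card (Fin N0 × Fin L → Fin r) : ℝ) * (‖x‖ ^ 2 / L) := by
    intro m k
    by_cases hmk : m = k
    · subst hmk
      simp only [rem_diag hg hL hx, norm_zero]
      simp
      positivity
    · exact sum_rem_offdiag_le hg hL x hmk
  have hsum : ∑ c : Fin N0 × Fin L → Fin r,
      ∑ m, ∑ k, ‖inner ℂ (blockVec h m) (remOp e h x c (blockVec h k))‖ ^ 2
        ≤ ∑ _c : Fin N0 × Fin L → Fin r, (N0 : ℝ) ^ 2 * (‖x‖ ^ 2 / L) := by
    calc ∑ c : Fin N0 × Fin L → Fin r,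
          ∑ m, ∑ k, ‖inner ℂ (blockVec h m) (remOp e h x c (blockVec h k))‖ ^ 2
        = ∑ m, ∑ k, ∑ c : Fin N0 × Fin L → Fin r,
            ‖inner ℂ (blockVec h m) (remOp e h x c (blockVec h k))‖ ^ 2 := by
          rw [Finset.sum_comm]
          exact Finset.sum_congr rfl fun m _ => Finset.sum_comm
      _ ≤ ∑ _m : Fin N0, ∑ _k : Fin N0,
            (Fintype.card (Fin N0 × Fin L → Fin r) : ℝ) * (‖x‖ ^ 2 / L) :=
          Finset.sum_le_sum fun m _ => Finset.sum_le_sum fun k _ => hent m k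
      _ = _ := by
          simp only [Finset.sum_const, Finset.card_univ, Fintype.card_fin, nsmul_eq_mul]
          ring
  obtain ⟨c, _, hc⟩ := Finset.exists_le_of_sum_le Finset.univ_nonempty hsum
  exact ⟨c, hc⟩

theorem upper_core [NeZero r] (hg : IsGrid e h) (hL : 0 < L) {x : H →L[ℂ] H}
    (hx : IsSelfAdjoint x) :
    ∃ c : Fin N0 × Fin L → Fin r,
      ‖rk (blockVec h) * (pinch (colourProj e c) x - corrOp e h x c) * rk (blockVec h)‖
        ≤ ‖x‖ / r + Real.sqrt ((N0 : ℝ) ^ 2 * (‖x‖ ^ 2 / L)) := by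
  obtain ⟨c, hc⟩ := exists_colouring (r := r) hg hL hx
  refine ⟨c, ?_⟩
  have hf := blockVec_orthonormal hg hL
  have hq : ‖rk (blockVec h)‖ ≤ 1 := IsStarProjection.norm_le _ (rk_isStarProjection hf)
  have e1 : rk (blockVec h) * (pinch (colourProj e c) x - corrOp e h x c) * rk (blockVec h)
      = rk (blockVec h) * remOp e h x c * rk (blockVec h)
        + ((1 : ℂ) / r) • (rk (blockVec h) * x * rk (blockVec h)) := by
    have : pinch (colourProj e c) x - corrOp e h x c = remOp e h x c + ((1 : ℂ) / r) • x := by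
      unfold remOp; abel
    rw [this, mul_add, add_mul, mul_smul_comm, smul_mul_assoc]
  have e2 : ‖rk (blockVec h) * remOp e h x c * rk (blockVec h)‖
      ≤ Real.sqrt ((N0 : ℝ) ^ 2 * (‖x‖ ^ 2 / L)) :=
    (norm_rk_mul_mul_rk_le hf _).trans (Real.sqrt_le_sqrt hc)
  have e3 : ‖rk (blockVec h) * x * rk (blockVec h)‖ ≤ ‖x‖ := by
    calc ‖rk (blockVec h) * x * rk (blockVec h)‖
        ≤ ‖rk (blockVec h)‖ * ‖x‖ * ‖rk (blockVec h)‖ :=
          (norm_mul_le _ _).trans (by gcongr; exact norm_mul_le _ _)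
      _ ≤ 1 * ‖x‖ * 1 := by gcongr
      _ = ‖x‖ := by ring
  have e4 : ‖((1 : ℂ) / r) • (rk (blockVec h) * x * rk (blockVec h))‖ ≤ ‖x‖ / r := by
    rw [norm_smul]
    have : ‖(1 : ℂ) / r‖ = 1 / (r : ℝ) := by simp
    rw [this]
    calc 1 / (r : ℝ) * ‖rk (blockVec h) * x * rk (blockVec h)‖ ≤ 1 / (r : ℝ) * ‖x‖ := by gcongr
      _ = _ := by ring
  rw [e1]
  calc _ ≤ ‖rk (blockVec h) * remOp e h x c * rk (blockVec h)‖
        + ‖((1 : ℂ) / r) • (rk (blockVec h) * x * rk (blockVec h))‖ := norm_add_le _ _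
    _ ≤ _ := by linarith

end core

end Vale.Agent.Lib.P078
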